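import Vale.Agent.P261.H399.Inv

/-!
# P261: crossed homomorphisms
-/

namespace Vale.Agent.P261

open MvPowerSeries Vale.Agent.P217

variable {p n : ℕ} [Fact p.Prime] {Γ : FormalGroup (ZMod p)} {F : FormalGroup (E0 p n)}

section Act

variable (k : ℤ) (a : Elt F)

theorem act_add (x y : E0 p n) : act k a (x + y) = act k a x + act k a y := by
  rw [act_mul, act_mul, act_mul, map_add, mul_add]

theorem act_sub (x y : E0 p n) : act k a (x - y) = act k a x - act k a y := by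
  rw [act_mul, act_mul, act_mul, map_sub, mul_sub]

/-- multiplication by a fixed element of `E₀`. -/
theorem act_fix {r : E0 p n} (hr : a.φ r = r) (x : E0 p n) : act k a (r * x) = r * act k a x := by
  rw [act_mul, act_mul, map_mul, hr]; ring

theorem act_int (r : ℤ) (x : E0 p n) : act k a ((r : E0 p n) * x) = (r : E0 p n) * act k a x :=
  act_fix k a (map_intCast a.φ r) x

theorem act_p (x : E0 p n) : act k a ((p : E0 p n) * x) = (p : E0 p n) * act k a x :=
  act_fix k a (map_natCast a.φ p) x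

end Act

section Basic

variable (p n)

instance : IsDomain (E0 p n) := NoZeroDivisors.to_isDomain _

variable {p n}

theorem p_ne_zero : (p : E0 p n) ≠ 0 := by
  intro h0
  have h6 := congrArg MvPowerSeries.constantCoeff h0
  rw [map_natCast, map_zero] at h6
  exact WittVector.p_nonzero p (GaloisField p n) h6

theorem p_prime (hn1 : 1 ≤ n) : Prime (p : E0 p n) := by
  have h := isPrime_heightIdeal (p := p) hn1 1 hn1
  rw [heightIdeal_one] at h
  exact (Ideal.span_singleton_prime p_ne_zero).1 h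

theorem unit_of_not_dvd {r : ℤ} (hr : ¬ (p : ℤ) ∣ r) : IsUnit (r : E0 p n) := by
  apply C0.isUnit_of_red
  rw [map_intCast]
  exact isUnit_iff_ne_zero.2 fun h => hr ((CharP.intCast_eq_zero_iff (GaloisField p n) p r).1 h)

theorem int_decomp {D : ℤ} (hD : D ≠ 0) : ∃ (s : ℕ) (r : ℤ), ¬ (p : ℤ) ∣ r ∧ D = (p : ℤ) ^ s * r := by
  have hp : p.Prime := Fact.out
  obtain ⟨r, h1, h2⟩ := (FiniteMultiplicity.of_not_isUnit
    (Nat.prime_iff_prime_int.1 hp).not_isUnit hD).exists_eq_pow_mul_and_not_dvd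
  exact ⟨_, r, h2, h1⟩

theorem dvd_int (hn1 : 1 ≤ n) {D : ℤ} (e : ℕ) (h : (p : E0 p n) ^ e ∣ (D : E0 p n)) :
    (p : ℤ) ^ e ∣ D := by
  rcases eq_or_ne D 0 with rfl | hD
  · exact dvd_zero _
  obtain ⟨s, r, hr, rfl⟩ := int_decomp (p := p) hD
  rcases le_or_gt e s with hle | hlt
  · exact (pow_dvd_pow _ hle).mul_right _
  · exfalso
    obtain ⟨d, rfl⟩ := Nat.exists_eq_add_of_lt hlt
    push_cast at h
    rw [add_assoc, pow_add] at h
    have h1 := (mul_dvd_mul_iff_left (pow_ne_zero s (p_ne_zero (p := p) (n := n)))).1 h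
    have h2 : (p : E0 p n) ∣ (r : E0 p n) := (dvd_pow_self _ d.succ_ne_zero).trans h1
    exact (p_prime hn1).not_isUnit (isUnit_of_dvd_unit h2 (unit_of_not_dvd hr))

/-- The central element of an integer prime to `p`. -/
noncomputable def cen [F.IsComm] (b : ℕ) (hb : IsUnit (b : E0 p n)) : Elt F where
  φ := RingEquiv.refl _
  g := multSeries F b
  iso := by
    have h : F.map ((RingEquiv.refl (E0 p n) : E0 p n ≃+* E0 p n) : E0 p n →+* E0 p n) = F :=
      C0.FG_map_id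
    rw [h]
    exact ⟨isHom_multSeries F b, by rw [C0.coeff_one_multSeries]; exact hb⟩

theorem cen_t [F.IsComm] (b : ℕ) (hb : IsUnit (b : E0 p n)) :
    (((cen (F := F) b hb).t : (E0 p n)ˣ) : E0 p n) = b := by
  rw [Elt.coe_t]
  exact C0.coeff_one_multSeries b

theorem cen_act [F.IsComm] (k : ℤ) (b : ℕ) (hb : IsUnit (b : E0 p n)) (x : E0 p n) :
    act k (cen (F := F) b hb) x = (((cen (F := F) b hb).t ^ k : (E0 p n)ˣ) : E0 p n) * x := rfl

/-- the centre commutes with everything. -/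
theorem cen_comm [F.IsComm] (b : ℕ) (hb : IsUnit (b : E0 p n)) (a : Elt F) :
    ∃ ab : Elt F, IsMul (cen b hb) a ab ∧ IsMul a (cen b hb) ab := by
  have h1 : IsIso F F (multSeries F b) :=
    ⟨isHom_multSeries F b, by rw [C0.coeff_one_multSeries]; exact hb⟩
  refine ⟨⟨a.φ, PowerSeries.subst (multSeries F b) a.g, h1.compC a.iso⟩, ⟨fun x => rfl, ?_⟩,
    ⟨fun x => rfl, ?_⟩⟩
  · change PowerSeries.subst (multSeries F b) a.g = PowerSeries.subst (multSeries F b)
      (PowerSeries.map (RingHom.id _) a.g)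
    rw [PowerSeries.map_id]
    rfl
  · change PowerSeries.subst (multSeries F b) a.g = PowerSeries.subst a.g
      (PowerSeries.map (a.φ : E0 p n →+* E0 p n) (multSeries F b))
    rw [fbMap_multSeries]
    exact a.iso.1.fbSubst_multSeries b

theorem cen_zpow_pos (u : (E0 p n)ˣ) (b : ℕ) (hub : (u : E0 p n) = b) {k : ℤ} (hk : 0 ≤ k) :
    ((u ^ k : (E0 p n)ˣ) : E0 p n) = (b : E0 p n) ^ k.natAbs := by
  have h : u ^ k = u ^ k.natAbs := by
    rw [← zpow_natCast]
    congr 1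
    omega
  rw [h, Units.val_pow_eq_pow_val, hub]

theorem cen_zpow_neg (u : (E0 p n)ˣ) (b : ℕ) (hub : (u : E0 p n) = b) {k : ℤ} (hk : k ≤ 0) :
    (b : E0 p n) ^ k.natAbs * ((u ^ k : (E0 p n)ˣ) : E0 p n) = 1 := by
  have h : u ^ k.natAbs * u ^ k = 1 := by
    rw [← zpow_natCast, ← zpow_add]
    have : (k.natAbs : ℤ) + k = 0 := by omega
    rw [this, zpow_zero]
  have h2 := congrArg (Units.val) h
  rw [Units.val_mul, Units.val_pow_eq_pow_val, hub, Units.val_one] at h2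
  exact h2

/-- the centre kills `H^1`. -/
theorem cen_kill [F.IsComm] {k : ℤ} {c : Elt F → E0 p n} (hc : IsCrossed k c) (b : ℕ)
    (hb : IsUnit (b : E0 p n)) :
    IsPrincipal k (fun a => (((b : ℤ) ^ k.natAbs - 1 : ℤ) : E0 p n) * c a) := by
  obtain ⟨z, hz, hzc, hzt⟩ : ∃ z : Elt F, (∀ x, act k z x = ((z.t ^ k : (E0 p n)ˣ) : E0 p n) * x) ∧
      (∀ a : Elt F, ∃ ab : Elt F, IsMul z a ab ∧ IsMul a z ab) ∧ (z.t : E0 p n) = b :=
    ⟨cen b hb, fun x => cen_act k b hb x, cen_comm b hb, cen_t b hb⟩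
  have key : ∀ a : Elt F, (((z.t ^ k : (E0 p n)ˣ) : E0 p n) - 1) * c a = act k a (c z) - c z := by
    intro a
    obtain ⟨ab, h1, h2⟩ := hzc a
    have h3 := hc _ _ _ h1
    have h4 := hc _ _ _ h2
    rw [h3, hz] at h4
    linear_combination h4
  rcases le_total 0 k with hk | hk
  · have h1 := cen_zpow_pos z.t b hzt hk
    rw [h1] at key
    refine ⟨c z, fun a => ?_⟩
    rw [← key a]
    push_cast
    ring
  · have h6 := cen_zpow_neg z.t b hzt hk
    generalize ((z.t ^ k : (E0 p n)ˣ) : E0 p n) = U at key h6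
    refine ⟨(-((b : E0 p n) ^ k.natAbs)) * c z, fun a => ?_⟩
    have h5 : act k a ((-((b : E0 p n) ^ k.natAbs)) * c z) =
        (-((b : E0 p n) ^ k.natAbs)) * act k a (c z) := by
      apply act_fix
      rw [map_neg, map_pow, map_natCast]
    rw [h5, ← mul_sub, ← key a]
    push_cast
    linear_combination (c a) * h6

/-- division by an integer prime to `p`. -/
theorem principal_div {k : ℤ} {c : Elt F → E0 p n} {D r : ℤ} (hr : ¬ (p : ℤ) ∣ r)
    (h : IsPrincipal k (fun a => ((D * r : ℤ) : E0 p n) * c a)) :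
    IsPrincipal k (fun a => (D : E0 p n) * c a) := by
  obtain ⟨y, hy⟩ := h
  obtain ⟨u, hu⟩ := unit_of_not_dvd (n := n) hr
  have hfix : ∀ a : Elt F, a.φ ((u⁻¹ : (E0 p n)ˣ) : E0 p n) = ((u⁻¹ : (E0 p n)ˣ) : E0 p n) := by
    intro a
    have h1 : a.φ (u : E0 p n) = u := by rw [hu, map_intCast]
    have h2 : a.φ (u : E0 p n) * a.φ ((u⁻¹ : (E0 p n)ˣ) : E0 p n) = 1 := by
      rw [← map_mul, Units.mul_inv, map_one]
    rw [h1] at h2
    calc a.φ ((u⁻¹ : (E0 p n)ˣ) : E0 p n)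
        = ((u⁻¹ : (E0 p n)ˣ) : E0 p n) * ((u : E0 p n) * a.φ ((u⁻¹ : (E0 p n)ˣ) : E0 p n)) := by
          rw [← mul_assoc, Units.inv_mul, one_mul]
      _ = ((u⁻¹ : (E0 p n)ˣ) : E0 p n) := by rw [h2, mul_one]
  refine ⟨((u⁻¹ : (E0 p n)ˣ) : E0 p n) * y, fun a => ?_⟩
  rw [act_fix k a (hfix a), ← mul_sub, ← hy a]
  push_cast
  rw [← hu]
  calc (D : E0 p n) * c a = (((u⁻¹ : (E0 p n)ˣ) : E0 p n) * (u : E0 p n)) * ((D : E0 p n) * c a) := by
        rw [Units.inv_mul, one_mul]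
    _ = _ := by ring

end Basic

end Vale.Agent.P261
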