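import Vale.Agent.P217.Defs

/-!
# P261: the modules `E_(2k)` over the Morava stabilizer group

The definitions of the Lubin-Tate ring `E₀`, of the universal deformation `F` and of isomorphisms
of formal group laws are those of `Vale.Agent.P217.Defs`.
-/

namespace Vale.Agent.P261

open Vale.Agent.P217

variable {p n : ℕ} [Fact p.Prime]

/-- An element of the extended Morava stabilizer group `G_n = Aut(Γ/𝔽_{p^n}) ⋊ Gal`, for a
universal deformation `F` over `E₀`: by universality such an element is the same as a ring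
automorphism `φ` of `E₀` together with an isomorphism `g : F → φ_* F` of formal group laws
(the element of `G_n` is the reduction of `(φ, g)` to the residue field). -/
structure Elt (F : FormalGroup (E0 p n)) where
  φ : E0 p n ≃+* E0 p n
  g : PowerSeries (E0 p n)
  iso : IsIso F (F.map (φ : E0 p n →+* E0 p n)) g

variable {F : FormalGroup (E0 p n)}

/-- The linear coefficient of `g`, a unit of `E₀`. -/
noncomputable def Elt.t (a : Elt F) : (E0 p n)ˣ := a.iso.2.unit

/-- `ab` is the product of `a` and `b` in `G_n`: `φ_(ab) = φ_a ∘ φ_b`, and `g_(ab)` is the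
composite `F → (φ_a)_* F → (φ_a)_* (φ_b)_* F` of `g_a` and `(φ_a)_* g_b`. -/
def IsMul (a b ab : Elt F) : Prop :=
  (∀ x, ab.φ x = a.φ (b.φ x)) ∧
    ab.g = PowerSeries.subst a.g (PowerSeries.map (a.φ : E0 p n →+* E0 p n) b.g)

/-- The action of `a ∈ G_n` on `E_(2k) = ω^(⊗ k) ≅ E₀`: `x ↦ t(a)^k φ_a(x)`. -/
noncomputable def act (k : ℤ) (a : Elt F) (x : E0 p n) : E0 p n := ((a.t ^ k : (E0 p n)ˣ) : E0 p n) * a.φ x

/-- `c` is a crossed homomorphism (1-cocycle) `G_n → E_(2k)`. -/
def IsCrossed (k : ℤ) (c : Elt F → E0 p n) : Prop :=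
  ∀ a b ab : Elt F, IsMul a b ab → c ab = c a + act k a (c b)

/-- `c` is a principal crossed homomorphism (1-coboundary) `G_n → E_(2k)`. -/
def IsPrincipal (k : ℤ) (c : Elt F → E0 p n) : Prop :=
  ∃ x : E0 p n, ∀ a : Elt F, c a = act k a x - x

/-- The class `v₁`: the coefficient of `X^p` in `[p]_F(X)`. -/
noncomputable def v1 (F : FormalGroup (E0 p n)) : E0 p n := PowerSeries.coeff p (multSeries F p)

/-- The class `v_h`: the coefficient of `X^(p^h)` in `[p]_F(X)`. -/
noncomputable def vH (F : FormalGroup (E0 p n)) (h : ℕ) : E0 p n :=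
  PowerSeries.coeff (p ^ h) (multSeries F p)

/-- `T` gives semilinear automorphisms of the `E₀`-module `M` over the elements of `G_n`. -/
def IsEquivariant {M : Type*} [AddCommGroup M] [Module (E0 p n) M] (T : Elt F → M ≃+ M) : Prop :=
  ∀ (a : Elt F) (r : E0 p n) (m : M), T a (r • m) = a.φ r • T a m

/-- `c` is a crossed homomorphism (1-cocycle) `G_n → M`. -/
def IsCrossedTo {M : Type*} [AddCommGroup M] (T : Elt F → M ≃+ M) (c : Elt F → M) : Prop :=
  ∀ a b ab : Elt F, IsMul a b ab → c ab = c a + T a (c b)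

/-- `c` is a principal crossed homomorphism (1-coboundary) `G_n → M`. -/
def IsPrincipalTo {M : Type*} [AddCommGroup M] (T : Elt F → M ≃+ M) (c : Elt F → M) : Prop :=
  ∃ y : M, ∀ a : Elt F, c a = T a y - y

end Vale.Agent.P261
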