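import Vale.Agent.P261.H399.Ser

/-!
# P261: endomorphisms of the formal group law over the height `n-1` stratum
-/

namespace Vale.Agent.P261

open MvPowerSeries Vale.Agent.P217 Vale.Agent.P217.FA

section Lead

variable {R : Type*} [CommRing R]

theorem lead_pow [IsDomain R] {p : ℕ} [Fact p.Prime] [CharP R p] {F G : FormalGroup R}
    {f : PowerSeries R} (hf : IsHom F G f) {N : ℕ}
    (h0 : ∀ j < N, PowerSeries.coeff j f = 0) (hN : PowerSeries.coeff N f ≠ 0) :
    ∃ s, N = p ^ s := by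
  have hp : p ≠ 0 := (Fact.out : p.Prime).ne_zero
  have hN0 : N ≠ 0 := by
    rintro rfl
    exact hN (by rw [PowerSeries.coeff_zero_eq_constantCoeff_apply]; exact hf.1)
  have hs1 : p ^ (Nat.log p N) ≤ N := Nat.pow_log_le_self p hN0
  have hs2 : N < p ^ (Nat.log p N + 1) := Nat.lt_pow_succ_log_self (Fact.out : p.Prime).one_lt N
  generalize Nat.log p N = s at hs1 hs2
  refine ⟨s, ?_⟩
  by_contra hne
  have hlt : p ^ s < N := lt_of_le_of_ne hs1 (Ne.symm hne)
  obtain ⟨V, hV, hVhom⟩ := hf.exists_height p s (fun j hj => h0 j (hj.trans hlt))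
  have h1 : PowerSeries.coeff 1 V = 0 := by
    have := h0 (p ^ s) hlt
    rw [hV, PowerSeries.coeff_subst_X_pow (pow_ne_zero s hp)] at this
    simpa only [dvd_refl, ↓reduceIte, Algebra.algebraMap_self, Nat.div_self (pow_pos (Fact.out : p.Prime).pos s), RingHom.id_apply] using this
  obtain ⟨W, hW⟩ := exists_expand_of_derivative_eq_zero p V (hVhom.derivative_eq_zero h1)
  apply hN
  rw [hV, PowerSeries.coeff_subst_X_pow (pow_ne_zero s hp)]
  split_ifs with hd
  · obtain ⟨k, rfl⟩ := hd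
    rw [Nat.mul_div_cancel_left _ (pow_pos (Fact.out : p.Prime).pos s), hW, PowerSeries.coeff_expand, if_neg, map_zero]
    intro hk
    have hk0 : k ≠ 0 := by
      rintro rfl
      exact hN0 (by simp)
    have := Nat.le_of_dvd (Nat.pos_of_ne_zero hk0) hk
    rw [pow_succ] at hs2
    exact absurd (Nat.lt_of_mul_lt_mul_left hs2) (not_lt.2 this)
  · rfl

theorem cc_psubst {P b : PowerSeries R} (hb : PowerSeries.constantCoeff b = 0) :
    PowerSeries.constantCoeff (PowerSeries.subst b P : PowerSeries R) =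
      PowerSeries.constantCoeff P := by
  have hs := fgHasSubst (show constantCoeff b = 0 from hb)
  obtain ⟨Q, hQ⟩ : PowerSeries.X ∣ P - PowerSeries.C (PowerSeries.constantCoeff P) :=
    PowerSeries.X_dvd_iff.2 (by simp)
  have e : P = PowerSeries.C (PowerSeries.constantCoeff P) + PowerSeries.X * Q := by
    rw [← hQ]; ring
  rw [e, PowerSeries.subst_add hs, PowerSeries.subst_mul hs, PowerSeries.subst_X hs,
    PowerSeries.subst_C, map_add, map_mul, hb, zero_mul, add_zero, map_add, map_mul,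
    PowerSeries.constantCoeff_X, zero_mul, add_zero, PowerSeries.constantCoeff_C]
  exact MvPowerSeries.constantCoeff_C _

theorem comp_lead {P b : PowerSeries R} {q N : ℕ} (hN : N ≠ 0) (hP : PowerSeries.X ^ q ∣ P)
    (hb : PowerSeries.X ^ N ∣ b) :
    PowerSeries.X ^ (N * q) ∣ (PowerSeries.subst b P : PowerSeries R) ∧
    PowerSeries.coeff (N * q) (PowerSeries.subst b P : PowerSeries R) =
      PowerSeries.coeff q P * PowerSeries.coeff N b ^ q := by
  obtain ⟨P', rfl⟩ := hP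
  obtain ⟨b', rfl⟩ := hb
  have hb0 : PowerSeries.constantCoeff (PowerSeries.X ^ N * b') = 0 := by simp [hN]
  have hs := fgHasSubst (show constantCoeff (PowerSeries.X ^ N * b') = 0 from hb0)
  rw [PowerSeries.subst_mul hs, PowerSeries.subst_pow hs, PowerSeries.subst_X hs, mul_pow,
    ← pow_mul, mul_assoc]
  refine ⟨dvd_mul_right _ _, ?_⟩
  rw [PowerSeries.coeff_X_pow_mul', if_pos le_rfl, Nat.sub_self,
    PowerSeries.coeff_X_pow_mul', if_pos le_rfl, Nat.sub_self,
    PowerSeries.coeff_X_pow_mul', if_pos le_rfl, Nat.sub_self]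
  simp only [PowerSeries.coeff_zero_eq_constantCoeff_apply, map_mul, map_pow]
  rw [cc_psubst hb0]
  ring

variable {G : FormalGroup R}

theorem val_add_eq (a b : ZPt G Unit) : ∃ H : PowerSeries R,
    (a + b).val = (a.val : PowerSeries R) + b.val + a.val * (b.val * H) := by
  obtain ⟨H, hH⟩ := exists_FG_decomp G
  have hs : MvPowerSeries.HasSubst ![a.val, b.val] :=
    fgHasSubst_pair a.constantCoeff_val b.constantCoeff_val
  refine ⟨MvPowerSeries.subst ![a.val, b.val] H, ?_⟩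
  rw [ZPt.val_add, hH, subst_add hs, subst_add hs, subst_mul hs, subst_mul hs, subst_X hs,
    subst_X hs]
  change a.val + b.val + a.val * b.val * _ = _
  ring

theorem X_dvd_val (a : ZPt G Unit) : (PowerSeries.X : PowerSeries R) ∣ a.val :=
  PowerSeries.X_dvd_iff.2 a.constantCoeff_val

theorem dvd_val_add {N : ℕ} {a b : ZPt G Unit} (ha : PowerSeries.X ^ N ∣ (a.val : PowerSeries R))
    (hb : PowerSeries.X ^ N ∣ (b.val : PowerSeries R)) :
    PowerSeries.X ^ N ∣ ((a + b).val : PowerSeries R) := by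
  obtain ⟨H, hH⟩ := val_add_eq a b
  rw [hH]
  exact dvd_add (dvd_add ha hb) (ha.mul_right _)

theorem dvd_of_dvd_val_add {N : ℕ} {a b : ZPt G Unit}
    (hab : PowerSeries.X ^ N ∣ ((a + b).val : PowerSeries R))
    (hb : PowerSeries.X ^ N ∣ (b.val : PowerSeries R)) :
    PowerSeries.X ^ N ∣ (a.val : PowerSeries R) := by
  obtain ⟨H, hH⟩ := val_add_eq a b
  have : (a.val : PowerSeries R) = (a + b).val - b.val - a.val * (b.val * H) := by
    rw [hH]; ring
  rw [this]
  exact dvd_sub (dvd_sub hab hb) ((hb.mul_right _).mul_left _)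

theorem coeff_val_add {N : ℕ} {a b : ZPt G Unit}
    (hb : PowerSeries.X ^ N ∣ (b.val : PowerSeries R)) :
    PowerSeries.coeff N ((a + b).val : PowerSeries R) =
      PowerSeries.coeff N (a.val : PowerSeries R) + PowerSeries.coeff N (b.val : PowerSeries R) := by
  obtain ⟨H, hH⟩ := val_add_eq a b
  have h1 : PowerSeries.X ^ (N + 1) ∣ (a.val * (b.val * H) : PowerSeries R) := by
    rw [pow_succ']
    exact mul_dvd_mul (X_dvd_val a) (hb.mul_right _)
  rw [hH, map_add, map_add, PowerSeries.X_pow_dvd_iff.1 h1 N (Nat.lt_succ_self N), add_zero]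

variable [G.IsComm]

omit [G.IsComm] in
theorem X_dvd_mult (m : ℕ) : PowerSeries.X ^ 1 ∣ multSeries G m := by
  rw [pow_one]
  exact PowerSeries.X_dvd_iff.2 (constantCoeff_multSeries' G m)

theorem nsmul_lead {N : ℕ} (hN : N ≠ 0) {y : ZPt G Unit}
    (hy : PowerSeries.X ^ N ∣ (y.val : PowerSeries R)) (m : ℕ) :
    PowerSeries.X ^ N ∣ ((m • y).val : PowerSeries R) ∧
      PowerSeries.coeff N ((m • y).val : PowerSeries R) =
        m * PowerSeries.coeff N (y.val : PowerSeries R) := by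
  have h := comp_lead hN (X_dvd_mult (G := G) m) hy
  rw [mul_one, pow_one, C0.coeff_one_multSeries] at h
  rw [ZPt.val_nsmul]
  exact h

/-- the point `X`. -/
noncomputable def xPt (G : FormalGroup R) : ZPt G Unit :=
  ZPt.mk G PowerSeries.X (show constantCoeff PowerSeries.X = 0 from PowerSeries.constantCoeff_X)

theorem xPt_val (G : FormalGroup R) : (xPt G).val = (PowerSeries.X : PowerSeries R) := rfl

/-- exponents of the leading coefficient of `[p^j]`. -/
def ee (q : ℕ) : ℕ → ℕ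
  | 0 => 0
  | j + 1 => 1 + ee q j * q

theorem ee_spec {q : ℕ} (hq : 1 ≤ q) (j : ℕ) : ee q j * (q - 1) + 1 = q ^ j := by
  obtain ⟨r, rfl⟩ := Nat.exists_eq_add_of_le hq
  induction j with
  | zero => simp [ee]
  | succ j ih =>
    rw [Nat.add_sub_cancel_left] at ih ⊢
    rw [pow_succ, ← ih, ee]
    ring

theorem pow_smul_lead {p q : ℕ} (hq0 : q ≠ 0)
    (hq : PowerSeries.X ^ q ∣ multSeries G p) (j : ℕ) :
    PowerSeries.X ^ (q ^ j) ∣ ((p ^ j • xPt G).val : PowerSeries R) ∧
      PowerSeries.coeff (q ^ j) ((p ^ j • xPt G).val : PowerSeries R) =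
        PowerSeries.coeff q (multSeries G p) ^ (ee q j) := by
  induction j with
  | zero =>
    simp only [pow_zero, one_smul, pow_one, ee]
    exact ⟨by rw [xPt_val], by rw [xPt_val, PowerSeries.coeff_one_X]⟩
  | succ j ih =>
    have h := comp_lead (pow_ne_zero j hq0) hq ih.1
    rw [← ZPt.val_nsmul, ← mul_smul, ← pow_succ', ← pow_succ, ih.2, ← pow_mul] at h
    refine ⟨h.1, h.2.trans ?_⟩
    rw [ee, pow_add, pow_one]

end Lead

section Digits

variable {R : Type*} [CommRing R] [IsDomain R] [WfDvdMonoid R] {p : ℕ} [Fact p.Prime] [CharP R p]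

omit [Fact p.Prime] in
theorem dvd_of_pow_sub (hp : 2 ≤ p) {h s e : ℕ} (he : e * (p ^ h - 1) + 1 = p ^ s) :
    h ∣ s := by
  have h1 : p ^ h - 1 ∣ p ^ s - 1 := ⟨e, by rw [← he]; simp [mul_comm]⟩
  have h2 := Nat.pow_sub_one_gcd_pow_sub_one p h s
  rw [Nat.gcd_eq_left h1] at h2
  have h3 : p ^ h = p ^ (Nat.gcd h s) := by
    have a1 : 1 ≤ p ^ h := Nat.one_le_pow _ _ (by omega)
    have a2 : 1 ≤ p ^ (Nat.gcd h s) := Nat.one_le_pow _ _ (by omega)
    omega
  have h4 := Nat.pow_right_injective hp h3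
  rw [h4]
  exact Nat.gcd_dvd_right h s

/-- the leading coefficient of an endomorphism. -/
theorem lead_solve {w c : R} (hw : Prime w) (hc : c ≠ 0) {h s : ℕ} (hh : 1 ≤ h)
    (hR : ∀ d : R, d ^ p ^ h = d → ∃ z : ℤ, (z : R) = d)
    (heq : c * w ^ (p ^ s) = w * c ^ (p ^ h)) :
    ∃ (j : ℕ) (z : ℤ), p ^ s = (p ^ h) ^ j ∧ c = z * w ^ (ee (p ^ h) j) := by
  have hp2 : 2 ≤ p := (Fact.out : p.Prime).two_le
  have hq1 : 1 ≤ p ^ h := Nat.one_le_pow _ _ (by omega)
  have hq2 : p ^ h ≠ 0 := by omega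
  obtain ⟨c', hce, hc'⟩ :=
    (FiniteMultiplicity.of_not_isUnit hw.not_isUnit hc).exists_eq_pow_mul_and_not_dvd
  generalize multiplicity w c = e at hce
  set q := p ^ h with hqdef
  have hw0 := hw.ne_zero
  have h1 : w ^ (e + p ^ s) * c' = w ^ (1 + e * q) * c' ^ q := by
    rw [hce] at heq
    rw [pow_add, pow_add, pow_one, pow_mul]
    calc w ^ e * w ^ p ^ s * c' = w ^ e * c' * w ^ p ^ s := by ring
      _ = w * (w ^ e * c') ^ q := heq
      _ = w * (w ^ e) ^ q * c' ^ q := by ring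
  have hndq : ¬ w ∣ c' ^ q := fun hd => hc' (hw.dvd_of_dvd_pow hd)
  have h2 : e + p ^ s = 1 + e * q := by
    rcases lt_trichotomy (e + p ^ s) (1 + e * q) with hlt | heq' | hgt
    · exfalso
      obtain ⟨k, hk⟩ := Nat.exists_eq_add_of_lt hlt
      rw [hk, show e + p ^ s + k + 1 = (e + p ^ s) + (k + 1) by ring, pow_add w (e + p ^ s),
        mul_assoc] at h1
      have h3 := mul_left_cancel₀ (pow_ne_zero _ hw0) h1
      apply hc'
      exact ((dvd_pow_self w k.succ_ne_zero).mul_right _).trans (dvd_of_eq h3.symm)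
    · exact heq'
    · exfalso
      obtain ⟨k, hk⟩ := Nat.exists_eq_add_of_lt hgt
      rw [hk, show 1 + e * q + k + 1 = (1 + e * q) + (k + 1) by ring, pow_add w (1 + e * q),
        mul_assoc] at h1
      have h3 := mul_left_cancel₀ (pow_ne_zero _ hw0) h1
      apply hndq
      exact ((dvd_pow_self w k.succ_ne_zero).mul_right _).trans (dvd_of_eq h3)
  have h3 : c' ^ q = c' := by
    rw [h2] at h1
    exact (mul_left_cancel₀ (pow_ne_zero _ hw0) h1).symm
  obtain ⟨z, hz⟩ := hR c' h3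
  have h4 : e * (q - 1) + 1 = p ^ s := by
    obtain ⟨r, hr⟩ := Nat.exists_eq_add_of_le hq1
    rw [hr] at h2 ⊢
    rw [Nat.add_sub_cancel_left]
    have : e * (1 + r) = e + e * r := by ring
    omega
  obtain ⟨j, rfl⟩ := dvd_of_pow_sub hp2 h4
  refine ⟨j, z, pow_mul p h j, ?_⟩
  rw [hce, ← hz, mul_comm]
  congr 2
  have h5 : ee (p ^ h) j * (p ^ h - 1) + 1 = (p ^ h) ^ j := ee_spec hq1 j
  have h8 : e * (p ^ h - 1) + 1 = (p ^ h) ^ j := h4.trans (pow_mul p h j)
  have h6 : ee (p ^ h) j * (p ^ h - 1) = e * (p ^ h - 1) := Nat.succ_injective (h5.trans h8.symm)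
  have h7 : 0 < p ^ h - 1 := by
    have : 2 ≤ p ^ h := hp2.trans (Nat.le_self_pow (by omega) p)
    omega
  exact (Nat.eq_of_mul_eq_mul_right h7 h6).symm

theorem exists_nsmul {G : FormalGroup R} [G.IsComm] {h : ℕ} (hh : 1 ≤ h)
    (hR : ∀ d : R, d ^ p ^ h = d → ∃ z : ℤ, (z : R) = d)
    (hdvd : PowerSeries.X ^ (p ^ h) ∣ multSeries G p)
    (hw : Prime (PowerSeries.coeff (p ^ h) (multSeries G p)))
    (f : ZPt G Unit) (hf : IsHom G G f.val) (N : ℕ) :
    ∃ a : ℕ, PowerSeries.X ^ N ∣ ((f + a • xPt G).val : PowerSeries R) := by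
  have hp : p.Prime := Fact.out
  have hq0 : p ^ h ≠ 0 := pow_ne_zero _ hp.ne_zero
  induction N with
  | zero => exact ⟨0, by simp⟩
  | succ N ih =>
    obtain ⟨a, ha⟩ := ih
    by_cases hc : PowerSeries.coeff N ((f + a • xPt G).val : PowerSeries R) = 0
    · refine ⟨a, ?_⟩
      rw [PowerSeries.X_pow_dvd_iff] at ha ⊢
      intro m hm
      rcases Nat.lt_succ_iff_lt_or_eq.1 hm with h1 | h1
      · exact ha m h1
      · rw [h1]; exact hc
    · have hhom : IsHom G G ((f + a • xPt G).val) := by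
        have h1 : IsHom G G ((a • xPt G).val) := by
          rw [ZPt.val_nsmul]
          have : (PowerSeries.subst (xPt G).val (multSeries G a) : PowerSeries R) =
            multSeries G a := PowerSeries.X_subst _
          rw [this]
          exact isHom_multSeries G a
        exact hf.add h1
      obtain ⟨s, hs⟩ := lead_pow hhom (PowerSeries.X_pow_dvd_iff.1 ha) hc
      have hN0 : N ≠ 0 := by rw [hs]; exact pow_ne_zero _ hp.ne_zero
      have e1 := hhom.fbSubst_multSeries p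
      have e2 := (comp_lead hq0 ha hdvd).2
      have e3 := (comp_lead hN0 hdvd ha).2
      rw [e1, mul_comm (p ^ h) N, e3] at e2
      obtain ⟨j, z, hj, hz⟩ := lead_solve hw hc hh hR (by rw [← hs, e2])
      obtain ⟨b, hb⟩ : ∃ b : ℕ, (b : R) = -(z : R) := by
        refine ⟨((-z) % (p : ℤ)).toNat, ?_⟩
        have h0 : 0 ≤ (-z) % (p : ℤ) := Int.emod_nonneg _ (by exact_mod_cast hp.ne_zero)
        have h1 : ((((-z) % (p : ℤ)).toNat : ℤ) : R) = (((-z) % (p : ℤ) : ℤ) : R) := by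
          rw [Int.toNat_of_nonneg h0]
        rw [Int.cast_natCast] at h1
        rw [h1, ← Int.cast_neg]
        have h2 := Int.emod_add_mul_ediv (-z) (p : ℤ)
        have h3 := congrArg (Int.cast : ℤ → R) h2
        push_cast at h3
        rw [CharP.cast_eq_zero R p, zero_mul, add_zero] at h3
        push_cast
        exact h3
      refine ⟨a + b * p ^ j, ?_⟩
      have hl := pow_smul_lead (G := G) hq0 hdvd j
      rw [← hj, ← hs] at hl
      have hl2 := nsmul_lead hN0 hl.1 b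
      rw [add_smul, ← add_assoc, mul_smul]
      rw [PowerSeries.X_pow_dvd_iff]
      intro m hm
      rcases Nat.lt_succ_iff_lt_or_eq.1 hm with h1 | h1
      · exact PowerSeries.X_pow_dvd_iff.1 (dvd_val_add ha hl2.1) m h1
      · rw [h1, coeff_val_add hl2.1, hl2.2, hl.2, hz, hb]
        ring

end Digits


section Pair

variable {κ : Type*} [Field κ] {p : ℕ} [Fact p.Prime] [CharP κ p] {n : ℕ}

theorem gamma_lead {Γ₀ : FormalGroup κ} [Γ₀.IsComm] (hs : multSeries Γ₀ p = PowerSeries.X ^ (p ^ n))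
    {l a : ℕ} (hnl : ¬ n ∣ l) (ul : ZPt Γ₀ Unit)
    (hul : (ul.val : PowerSeries κ) = PowerSeries.C 1 * PowerSeries.X ^ (p ^ l))
    (h : PowerSeries.X ^ (p ^ l + 1) ∣ (((1 + a) • xPt Γ₀ + ul).val : PowerSeries κ)) : False := by
  have hp : p.Prime := Fact.out
  obtain ⟨v, u, hu, hvu⟩ := Nat.exists_eq_pow_mul_and_not_dvd (n := 1 + a) (by omega) p hp.ne_one
  have hq0 : p ^ n ≠ 0 := pow_ne_zero _ hp.ne_zero
  have hl1 := pow_smul_lead (G := Γ₀) (p := p) hq0 (dvd_of_eq hs.symm) v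
  rw [hs, PowerSeries.coeff_X_pow_self, one_pow, ← pow_mul] at hl1
  have hM0 : p ^ (n * v) ≠ 0 := pow_ne_zero _ hp.ne_zero
  have hl2 := nsmul_lead hM0 hl1.1 u
  rw [← mul_smul, mul_comm u, ← hvu, hl1.2, mul_one] at hl2
  have hne : n * v ≠ l := fun hh => hnl ⟨v, hh.symm⟩
  have hul' : ∀ m, PowerSeries.coeff m (ul.val : PowerSeries κ) = if m = p ^ l then 1 else 0 := by
    intro m
    rw [hul, map_one, one_mul, PowerSeries.coeff_X_pow]
  rcases lt_or_gt_of_ne hne with hlt | hgt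
  · have hpl : p ^ (n * v) < p ^ l := Nat.pow_lt_pow_right hp.one_lt hlt
    have hd : PowerSeries.X ^ (p ^ (n * v)) ∣ (ul.val : PowerSeries κ) := by
      rw [PowerSeries.X_pow_dvd_iff]
      intro m hm
      rw [hul', if_neg (by omega)]
    have h1 := coeff_val_add (a := (1 + a) • xPt Γ₀) hd
    rw [hl2.2, hul', if_neg (by omega), add_zero,
      PowerSeries.X_pow_dvd_iff.1 h _ (by omega)] at h1
    exact hu ((CharP.cast_eq_zero_iff κ p u).1 h1.symm)
  · have hpl : p ^ l < p ^ (n * v) := Nat.pow_lt_pow_right hp.one_lt hgt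
    have hd : PowerSeries.X ^ (p ^ l) ∣ (ul.val : PowerSeries κ) := by
      rw [PowerSeries.X_pow_dvd_iff]
      intro m hm
      rw [hul', if_neg (by omega)]
    have h1 := coeff_val_add (a := (1 + a) • xPt Γ₀) hd
    rw [hul', if_pos rfl, PowerSeries.X_pow_dvd_iff.1 hl2.1 _ hpl,
      PowerSeries.X_pow_dvd_iff.1 h _ (by omega), zero_add] at h1
    exact zero_ne_one h1

theorem no_iso_pair {h : ℕ} {Γ₀ : FormalGroup κ} (hΓ₀ : HondaLike p n Γ₀) (A : FamFG p n h κ Γ₀)
    (hR : ∀ d : MvPowerSeries (Fin (n - h)) κ, d ^ p ^ h = d → ∃ z : ℤ, (z : MvPowerSeries (Fin (n - h)) κ) = d)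
    {G' : FormalGroup (MvPowerSeries (Fin (n - h)) κ)} [G'.IsComm]
    {g g' : PowerSeries (MvPowerSeries (Fin (n - h)) κ)}
    (hg : IsIso A.G G' g) (hg' : IsIso A.G G' g') {l l' : ℕ} (hl : 1 ≤ l) (hll : l < l')
    (hnl : ¬ n ∣ l) (r : g.map constantCoeff = gser p Γ₀ 1 l)
    (r' : g'.map constantCoeff = gser p Γ₀ 1 l') : False := by
  have hp : p.Prime := Fact.out
  have : A.G.IsComm := A.comm
  have : Γ₀.IsComm := hΓ₀.comm
  have : CharP (MvPowerSeries (Fin (n - h)) κ) p := HT_charP_mvPowerSeries p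
  have : IsDomain (MvPowerSeries (Fin (n - h)) κ) := NoZeroDivisors.to_isDomain _
  have hh := A.one_le_h
  obtain ⟨e, heu, he⟩ := A.V_one
  have hph0 : p ^ h ≠ 0 := pow_ne_zero _ hp.ne_zero
  have hcoef : PowerSeries.coeff (p ^ h) (multSeries A.G p) =
      e * X (⟨0, Nat.sub_pos_of_lt A.h_lt_n⟩ : Fin (n - h)) := by
    rw [A.series, PowerSeries.coeff_subst_X_pow hph0, if_pos (dvd_refl _),
      Nat.div_self (Nat.pos_of_ne_zero hph0), ← he]
    rfl
  have hdvd : PowerSeries.X ^ (p ^ h) ∣ multSeries A.G p := by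
    rw [PowerSeries.X_pow_dvd_iff]
    intro m hm
    rw [A.series, PowerSeries.coeff_subst_X_pow hph0]
    split_ifs with hd
    · have hm0 : m = 0 := Nat.eq_zero_of_dvd_of_lt hd hm
      rw [hm0, Nat.zero_div, PowerSeries.coeff_zero_eq_constantCoeff_apply, A.V_zero, map_zero]
    · rfl
  have hprime : Prime (PowerSeries.coeff (p ^ h) (multSeries A.G p)) := by
    rw [hcoef]
    exact (associated_unit_mul_left _ _ heu).symm.prime (prime_X _)
  obtain ⟨v, hv, hv1, hv2⟩ := hg'.symmC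
  have hf : IsIso A.G A.G (PowerSeries.subst g v) := hg.compC hv
  have hfg : (PowerSeries.subst (PowerSeries.subst g v : PowerSeries (MvPowerSeries (Fin (n - h)) κ)) g' :
      PowerSeries (MvPowerSeries (Fin (n - h)) κ)) = g := by
    rw [← psubst_psubst hv.1.1 hg.1.1, hv2, PowerSeries.subst_X (fgHasSubst hg.1.1)]
  obtain ⟨a, ha⟩ := exists_nsmul hh hR hdvd hprime (ZPt.mk A.G (PowerSeries.subst g v) hf.1.1) hf.1
    (p ^ l + 1)
  -- apply `g'`
  have h1 : PowerSeries.X ^ (p ^ l + 1) ∣ (PowerSeries.subst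
      (MvPowerSeries.subst ![(PowerSeries.subst g v : PowerSeries (MvPowerSeries (Fin (n - h)) κ)),
        multSeries A.G a] A.G.toPowerSeries : PowerSeries (MvPowerSeries (Fin (n - h)) κ)) g' :
      PowerSeries (MvPowerSeries (Fin (n - h)) κ)) := by
    refine Dvd.dvd.trans ?_ (dvd_psubst hg'.1.1 (constantCoeff_subst_pair _ hf.1.1
      (constantCoeff_multSeries' A.G a)))
    rw [ZPt.val_add, ZPt.val_nsmul] at ha
    have e2 : (PowerSeries.subst (xPt A.G).val (multSeries A.G a) :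
        PowerSeries (MvPowerSeries (Fin (n - h)) κ)) = multSeries A.G a := PowerSeries.X_subst _
    rw [e2] at ha
    exact ha
  rw [hg'.1.apply hf.1.1 (constantCoeff_multSeries' A.G a), hfg, hg'.1.fbSubst_multSeries] at h1
  obtain ⟨k, hk⟩ := h1
  have h2 := congrArg (MvPowerSeries.map (constantCoeff : MvPowerSeries (Fin (n - h)) κ →+* κ)) hk
  rw [map_subst_pair _ G' hg.1.1 (fbConstantCoeff_psubst hg'.1.1 (constantCoeff_multSeries' G' a))] at h2
  have hG' : G'.map constantCoeff = Γ₀ := by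
    have h3 := hg.mapC constantCoeff
    rw [r, A.reduction] at h3
    exact h3.targetC (isIso_gser' hΓ₀ (one_pow _) l hl)
  have e4 : MvPowerSeries.map constantCoeff (PowerSeries.subst g' (multSeries G' a) :
      PowerSeries (MvPowerSeries (Fin (n - h)) κ)) =
      (PowerSeries.subst (gser p Γ₀ 1 l') (multSeries Γ₀ a) : PowerSeries κ) := by
    have := C0.ps_map_subst (constantCoeff : MvPowerSeries (Fin (n - h)) κ →+* κ) hg'.1.1
      (multSeries G' a)
    rw [r', fbMap_multSeries, hG'] at this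
    exact this
  have e5 : MvPowerSeries.map constantCoeff g = gser p Γ₀ 1 l := r
  rw [hG', e4, e5] at h2
  have e6 : PowerSeries.X ^ (p ^ l + 1) ∣ MvPowerSeries.map constantCoeff (PowerSeries.X ^ (p ^ l + 1) * k) := by
    have : MvPowerSeries.map (constantCoeff : MvPowerSeries (Fin (n - h)) κ →+* κ)
        (PowerSeries.X ^ (p ^ l + 1) * k) =
        PowerSeries.map constantCoeff (PowerSeries.X ^ (p ^ l + 1) * k) := rfl
    rw [this, map_mul, map_pow, PowerSeries.map_X]
    exact dvd_mul_right _ _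
  rw [← h2] at e6
  -- points of `Γ₀`
  have hcc : ∀ m : ℕ, constantCoeff (PowerSeries.C (1 : κ) * PowerSeries.X ^ (p ^ m) : PowerSeries κ) = 0 := by
    intro m
    change PowerSeries.constantCoeff (PowerSeries.C (1 : κ) * PowerSeries.X ^ (p ^ m)) = 0
    simp [hp.ne_zero]
  let u : ℕ → ZPt Γ₀ Unit := fun m => ZPt.mk Γ₀ (PowerSeries.C (1 : κ) * PowerSeries.X ^ (p ^ m)) (hcc m)
  have e7 : (((xPt Γ₀ + u l) + a • (xPt Γ₀ + u l')).val : PowerSeries κ) =
      MvPowerSeries.subst ![gser p Γ₀ 1 l, PowerSeries.subst (gser p Γ₀ 1 l') (multSeries Γ₀ a)]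
        Γ₀.toPowerSeries := by
    rw [ZPt.val_add, ZPt.val_nsmul]
    rfl
  rw [← e7] at e6
  have e8 : (xPt Γ₀ + u l) + a • (xPt Γ₀ + u l') = ((1 + a) • xPt Γ₀ + u l) + a • u l' := by
    rw [smul_add, add_smul, one_smul]
    abel
  rw [e8] at e6
  have hdul : PowerSeries.X ^ (p ^ l + 1) ∣ ((u l').val : PowerSeries κ) := by
    change PowerSeries.X ^ (p ^ l + 1) ∣ PowerSeries.C (1 : κ) * PowerSeries.X ^ (p ^ l')
    exact (pow_dvd_pow _ (Nat.succ_le_of_lt (Nat.pow_lt_pow_right hp.one_lt hll))).mul_left _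
  exact gamma_lead hΓ₀.series hnl (u l) rfl
    (dvd_of_dvd_val_add e6 (nsmul_lead (Nat.succ_ne_zero _) hdul a).1)

end Pair

end Vale.Agent.P261
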