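import Vale.Agent.P261.H399.Mod

/-!
# P261: finiteness of invariants of finitely generated equivariant modules
-/

namespace Vale.Agent.P261

open Vale.Agent.P217 Vale.Agent.P217.H260

universe u

variable {p n : ℕ} [Fact p.Prime] {Γ : FormalGroup (ZMod p)} {F : FormalGroup (E0 p n)}

section

variable (hF : IsUniversalDeformation p n Γ F) (hH : HeightAdapted p n F) (hΓ : IsHonda p n Γ)
include hF hH hΓ

variable {M : Type u} [AddCommGroup M] [Module (E0 p n) M] [Module.Finite (E0 p n) M]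
  (T : Elt F → M ≃+ M) (hT : ∀ a r m, T a (r • m) = a.φ r • T a m)
include hT

/-- the filtration. -/
theorem exists_filt (hn1 : 1 ≤ n) (A : Submodule (E0 p n) M)
    (hA : ∀ (φ : RingAut (E0 p n)) (f : M ≃+ M), (∀ (r : E0 p n) m, f (r • m) = φ r • f m) →
      ∀ m, m ∈ A ↔ f m ∈ A) :
    ∃ (k : ℕ) (s : ℕ → Submodule (E0 p n) M), s 0 = A ∧ s k = ⊤ ∧ ∀ i < k, s i ≤ s (i + 1) ∧
      (∀ (a : Elt F) m, m ∈ s i ↔ T a m ∈ s i) ∧
      ∃ h ≤ n, ∀ m ∈ s (i + 1), ∀ r : E0 p n, r • m ∈ s i ↔ r ∈ heightIdeal p n h ∨ m ∈ s i := by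
  have hC := chain (p := p) (n := n) (F := F) hn1 (LTC.isHonda_iff.2 hΓ) (LTC.isUniversal_iff.2 hF)
    (LTC.heightAdapted_iff.2 hH)
  have hmemA : ∀ a : Elt F, (a.φ : RingAut (E0 p n)) ∈ LT.actionGroup p n Γ F := by
    intro a
    rw [mem_actionGroup hF, acts_iff_actIso hF]
    exact ⟨a.g, a.iso⟩
  have hM : ∀ u ∈ (⊤ : Subgroup (LT.actionGroup p n Γ F)), ∃ f : M ≃+ M,
      IsSemilin (R := E0 p n) u f := by
    intro u _
    have h1 := u.2
    rw [mem_actionGroup hF, acts_iff_actIso hF] at h1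
    obtain ⟨g, hg⟩ := h1
    exact ⟨T ⟨_, g, hg⟩, fun r m => hT _ r m⟩
  obtain ⟨k, s, h0, hk, hs⟩ := hC.filtration ⊤ hM A (fun g f hf m => hA g f hf m)
  refine ⟨k, s, h0, hk, fun i hi => ?_⟩
  obtain ⟨h1, h2, h3⟩ := hs i hi
  exact ⟨h1.le, fun a m => h2 ⟨a.φ, hmemA a⟩ (T a) (fun r m => hT a r m) m, h3⟩

/-- finiteness of the classes invariant modulo `A`. -/
theorem rel_finite (hn : 2 ≤ n) (A : Submodule (E0 p n) M)
    (hA : ∀ (φ : RingAut (E0 p n)) (f : M ≃+ M), (∀ (r : E0 p n) m, f (r • m) = φ r • f m) →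
      ∀ m, m ∈ A ↔ f m ∈ A) (N : ℕ) :
    (A.mkQ '' {m | (p : E0 p n) ^ N • m ∈ A ∧ ∀ a, T a m - m ∈ A}).Finite := by
  classical
  have hn1 : 1 ≤ n := by omega
  obtain ⟨k, s, h0, hk, hs⟩ := exists_filt hF hH hΓ T hT hn1 A hA
  have hle : ∀ i ≤ k, A ≤ s i := by
    intro i hi
    induction i with
    | zero => rw [h0]
    | succ i ih => exact (ih (by omega)).trans (hs i (by omega)).1
  have key : ∀ i ≤ k, (A.mkQ '' {m | m ∈ s i ∧ (p : E0 p n) ^ N • m ∈ A ∧
      ∀ a, T a m - m ∈ A}).Finite := by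
    intro i hi
    induction i with
    | zero =>
      refine Set.Finite.subset (Set.finite_singleton (0 : M ⧸ A)) ?_
      rintro _ ⟨m, ⟨hm, -, -⟩, rfl⟩
      rw [h0] at hm
      rw [Set.mem_singleton_iff, Submodule.mkQ_apply, Submodule.Quotient.mk_eq_zero]
      exact hm
    | succ i ih =>
      have ih' := ih (by omega)
      obtain ⟨hle1, hstab, h, hh, hstep⟩ := hs i (by omega)
      rcases Nat.eq_zero_or_pos h with rfl | hpos
      · refine ih'.subset (Set.image_mono ?_)
        rintro m ⟨hm, hpm, hinv⟩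
        refine ⟨?_, hpm, hinv⟩
        rcases (hstep m hm _).1 (hle i (by omega) hpm) with h1 | h1
        · rw [heightIdeal, if_pos rfl, Ideal.mem_bot] at h1
          exact absurd h1 (pow_ne_zero N p_ne_zero)
        · exact h1
      · obtain ⟨S, hS, hgen⟩ := step_gen (fun (a : Elt F) (r : E0 p n) => a.φ r) T hT
          (heightIdeal p n h) (s i) (s (i + 1))
          (fun h1 => (isPrime_heightIdeal (p := p) hn1 h hh).ne_top ((Ideal.eq_top_iff_one _).2 h1))
          hstab hstep (fun a b ha hab => key_all hF hH hΓ hn hpos hh ha hab)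
        have hc : ∀ m : M, ∃ c : M → ℤ, m ∈ s (i + 1) ∧ (∀ a, T a m - m ∈ A) →
            m - ∑ x ∈ S, c x • x ∈ s i := by
          intro m
          by_cases hm : m ∈ s (i + 1) ∧ (∀ a, T a m - m ∈ A)
          · obtain ⟨c, hc⟩ := hgen m hm.1 (fun a => hle i (by omega) (hm.2 a))
            exact ⟨c, fun _ => hc⟩
          · exact ⟨0, fun h => absurd h hm⟩
        choose c hc using hc
        let q : M → (S → ZMod p) := fun m x => (c m x : ZMod p)
        refine Set.Finite.subset (Set.finite_iUnion (H := fun v : S → ZMod p => ?_)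
          (f := fun v : S → ZMod p => A.mkQ '' {m | (m ∈ s (i + 1) ∧ (p : E0 p n) ^ N • m ∈ A ∧
            ∀ a, T a m - m ∈ A) ∧ q m = v})) ?_
        · rcases Set.eq_empty_or_nonempty {m | (m ∈ s (i + 1) ∧ (p : E0 p n) ^ N • m ∈ A ∧
            ∀ a, T a m - m ∈ A) ∧ q m = v} with he | ⟨m₀, ⟨hm₀, hpm₀, hinv₀⟩, hq₀⟩
          · rw [he, Set.image_empty]
            exact Set.finite_empty
          · refine (ih'.image (fun y => A.mkQ m₀ + y)).subset ?_
            rintro _ ⟨m, ⟨⟨hm, hpm, hinv⟩, hq⟩, rfl⟩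
            refine ⟨A.mkQ (m - m₀), ⟨m - m₀, ⟨?_, ?_, ?_⟩, rfl⟩, ?_⟩
            · have h1 := hc m ⟨hm, hinv⟩
              have h2 := hc m₀ ⟨hm₀, hinv₀⟩
              have h3 : ∑ x ∈ S, c m x • x - ∑ x ∈ S, c m₀ x • x ∈ s i := by
                rw [← Finset.sum_sub_distrib]
                refine Submodule.sum_mem _ fun x hx => ?_
                rw [← sub_smul]
                have h4 : (q m) ⟨x, hx⟩ = (q m₀) ⟨x, hx⟩ := by rw [hq, hq₀]
                have h5 : (p : ℤ) ∣ c m x - c m₀ x := by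
                  rw [← ZMod.intCast_zmod_eq_zero_iff_dvd] 
                  push_cast
                  exact sub_eq_zero.2 h4
                obtain ⟨d, hd⟩ := h5
                rw [hd, mul_comm, mul_smul]
                refine (s i).smul_of_tower_mem d ?_
                have h6 : (p : ℤ) • x = (p : E0 p n) • x := by
                  rw [natCast_zsmul, Nat.cast_smul_eq_nsmul]
                rw [h6]
                refine (hstep x (hS x hx).1 _).2 (Or.inl ?_)
                rw [heightIdeal, if_neg (by omega)]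
                exact Ideal.subset_span (Or.inl rfl)
              have h7 : m - m₀ = (m - ∑ x ∈ S, c m x • x) - (m₀ - ∑ x ∈ S, c m₀ x • x) +
                  (∑ x ∈ S, c m x • x - ∑ x ∈ S, c m₀ x • x) := by abel
              rw [h7]
              exact (s i).add_mem ((s i).sub_mem h1 h2) h3
            · rw [smul_sub]
              exact A.sub_mem hpm hpm₀
            · intro a
              have h8 : T a (m - m₀) - (m - m₀) = (T a m - m) - (T a m₀ - m₀) := by
                rw [map_sub]; abel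
              rw [h8]
              exact A.sub_mem (hinv a) (hinv₀ a)
            · change A.mkQ m₀ + A.mkQ (m - m₀) = A.mkQ m
              rw [← map_add]
              congr 1
              abel
        · rintro _ ⟨m, hm, rfl⟩
          exact Set.mem_iUnion.2 ⟨q m, m, ⟨hm, rfl⟩, rfl⟩
  have hfin := key k le_rfl
  refine hfin.subset (Set.image_mono ?_)
  rintro m ⟨h1, h2⟩
  refine ⟨?_, h1, h2⟩
  rw [hk]
  exact Submodule.mem_top

end

end Vale.Agent.P261
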