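import Vale.Agent.P261.H399.Fin

/-!
# P261: the invariants of a finitely generated equivariant module
-/

namespace Vale.Agent.P261

open Vale.Agent.P217 Vale.Agent.P217.H260

universe u

variable {p n : ℕ} [Fact p.Prime] {Γ : FormalGroup (ZMod p)} {F : FormalGroup (E0 p n)}

theorem phi_p_pow (φ : RingAut (E0 p n)) (j : ℕ) : φ ((p : E0 p n) ^ j) = (p : E0 p n) ^ j := by
  rw [map_pow, map_natCast]

theorem exists_rep {α β : Type*} (f : α → β) (s : Set α) (h : (f '' s).Finite) :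
    ∃ t ⊆ s, t.Finite ∧ ∀ x ∈ s, ∃ y ∈ t, f x = f y := by
  obtain ⟨t, hts, hbij⟩ := Set.exists_subset_bijOn s f
  refine ⟨t, hts, ?_, ?_⟩
  · exact Set.Finite.of_finite_image (h.subset (hbij.image_eq.le)) hbij.injOn
  · intro x hx
    obtain ⟨y, hy, hyx⟩ := hbij.surjOn ⟨x, hx, rfl⟩
    exact ⟨y, hy, hyx.symm⟩

section

variable (hF : IsUniversalDeformation p n Γ F) (hH : HeightAdapted p n F) (hΓ : IsHonda p n Γ)
include hF hH hΓ

variable {M : Type u} [AddCommGroup M] [Module (E0 p n) M] [Module.Finite (E0 p n) M]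
  (T : Elt F → M ≃+ M) (hT : ∀ a r m, T a (r • m) = a.φ r • T a m)
include hT

theorem inv_fg (hn : 2 ≤ n) : ∃ S : Finset M, (∀ s ∈ S, ∀ a, T a s = s) ∧
    ∀ x, (∀ a, T a x = x) → ∀ J : ℕ, ∃ (c : M → ℤ) (y : M), (∀ a, T a y = y) ∧
      x = ∑ s ∈ S, c s • s + (p : E0 p n) ^ J • y := by
  classical
  have hTp : ∀ (a : Elt F) (j : ℕ) (m : M), T a ((p : E0 p n) ^ j • m) = (p : E0 p n) ^ j • T a m := by
    intro a j m
    rw [hT, map_pow, map_natCast]
  -- stabilization of the `p`-power torsion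
  obtain ⟨N, hN⟩ : ∃ N : ℕ, ∀ (j : ℕ) (m : M), (p : E0 p n) ^ j • m = 0 → (p : E0 p n) ^ N • m = 0 := by
    let K : ℕ →o Submodule (E0 p n) M :=
      { toFun := fun j => Submodule.torsionBy (E0 p n) M ((p : E0 p n) ^ j)
        monotone' := by
          intro i j hij m hm
          rw [Submodule.mem_torsionBy_iff] at hm ⊢
          obtain ⟨d, rfl⟩ := Nat.exists_eq_add_of_le hij
          rw [pow_add, mul_comm, mul_smul, hm, smul_zero] }
    obtain ⟨N, hN⟩ := monotone_stabilizes_iff_noetherian.2 (inferInstance : IsNoetherian (E0 p n) M) K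
    refine ⟨N, fun j m hm => ?_⟩
    rcases le_total N j with h | h
    · have h1 : m ∈ K j := (Submodule.mem_torsionBy_iff _ _).2 hm
      rw [← hN j h] at h1
      exact (Submodule.mem_torsionBy_iff _ _).1 h1
    · obtain ⟨d, rfl⟩ := Nat.exists_eq_add_of_le h
      rw [pow_add, mul_comm, mul_smul, hm, smul_zero]
  let H : Set M := {m | ∀ a, T a m = m}
  -- the torsion invariants
  have hS2 : {m : M | (p : E0 p n) ^ N • m = 0 ∧ ∀ a, T a m = m}.Finite := by
    have h1 := rel_finite hF hH hΓ T hT hn ⊥ (by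
      intro φ f _ m
      rw [Submodule.mem_bot, Submodule.mem_bot, EmbeddingLike.map_eq_zero_iff]) N
    have h2 : {m : M | (p : E0 p n) ^ N • m ∈ (⊥ : Submodule (E0 p n) M) ∧
        ∀ a, T a m - m ∈ (⊥ : Submodule (E0 p n) M)} =
        {m : M | (p : E0 p n) ^ N • m = 0 ∧ ∀ a, T a m = m} := by
      ext m
      simp only [Submodule.mem_bot, sub_eq_zero, Set.mem_ofPred_eq]
    rw [h2] at h1
    refine Set.Finite.of_finite_image h1 (fun x _ y _ hxy => ?_)
    rw [Submodule.mkQ_apply, Submodule.mkQ_apply, Submodule.Quotient.eq, Submodule.mem_bot] at hxy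
    exact sub_eq_zero.1 hxy
  -- the submodule `p^(N+1) M + torsion`
  let A : Submodule (E0 p n) M :=
    { carrier := {m | ∃ y : M, (p : E0 p n) ^ N • (m - (p : E0 p n) ^ (N + 1) • y) = 0}
      add_mem' := by
        rintro m m' ⟨y, hy⟩ ⟨y', hy'⟩
        refine ⟨y + y', ?_⟩
        have e : m + m' - (p : E0 p n) ^ (N + 1) • (y + y') =
            (m - (p : E0 p n) ^ (N + 1) • y) + (m' - (p : E0 p n) ^ (N + 1) • y') := by
          rw [smul_add]; abel
        rw [e, smul_add, hy, hy', add_zero]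
      zero_mem' := ⟨0, by simp⟩
      smul_mem' := by
        rintro r m ⟨y, hy⟩
        refine ⟨r • y, ?_⟩
        rw [smul_comm _ r y, ← smul_sub, smul_comm _ r, hy, smul_zero] }
  have hAmem : ∀ m, m ∈ A ↔ ∃ y : M, (p : E0 p n) ^ N • (m - (p : E0 p n) ^ (N + 1) • y) = 0 :=
    fun m => Iff.rfl
  have hA : ∀ (φ : RingAut (E0 p n)) (f : M ≃+ M), (∀ (r : E0 p n) m, f (r • m) = φ r • f m) →
      ∀ m, m ∈ A ↔ f m ∈ A := by
    intro φ f hf m
    have hfp : ∀ (j : ℕ) (m : M), f ((p : E0 p n) ^ j • m) = (p : E0 p n) ^ j • f m := by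
      intro j m
      rw [hf, phi_p_pow]
    rw [hAmem, hAmem]
    constructor
    · rintro ⟨y, hy⟩
      refine ⟨f y, ?_⟩
      rw [← hfp (N + 1), ← map_sub, ← hfp, hy, map_zero]
    · rintro ⟨y, hy⟩
      refine ⟨f.symm y, ?_⟩
      apply f.injective
      rw [hfp, map_sub, hfp, AddEquiv.apply_symm_apply, hy, map_zero]
  have hrel := rel_finite hF hH hΓ T hT hn A hA (N + 1)
  have hHsub : H ⊆ {m | (p : E0 p n) ^ (N + 1) • m ∈ A ∧ ∀ a, T a m - m ∈ A} := by
    intro m hm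
    refine ⟨⟨m, by simp⟩, fun a => ?_⟩
    rw [hm a, sub_self]
    exact A.zero_mem
  obtain ⟨S1, hS1H, hS1fin, hS1⟩ := exists_rep A.mkQ H (hrel.subset (Set.image_mono hHsub))
  -- one step
  have step : ∀ x, (∀ a, T a x = x) → ∃ s ∈ S1, ∃ τ ∈ {m : M | (p : E0 p n) ^ N • m = 0 ∧
      ∀ a, T a m = m}, ∃ x1 : M, (∀ a, T a x1 = x1) ∧ x = s + τ + (p : E0 p n) • x1 := by
    intro x hx
    obtain ⟨s, hs, hxs⟩ := hS1 x hx
    rw [Submodule.mkQ_apply, Submodule.mkQ_apply, Submodule.Quotient.eq, hAmem] at hxs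
    obtain ⟨y, hy⟩ := hxs
    have hsH : ∀ a, T a s = s := hS1H hs
    have hx1 : ∀ a, T a ((p : E0 p n) ^ N • y) = (p : E0 p n) ^ N • y := by
      intro a
      have h1 : (p : E0 p n) ^ (N + (N + 1)) • (T a y - y) = 0 := by
        have h2 := congrArg (T a) hy
        rw [hTp, map_sub, map_sub, hx a, hsH a, hTp, map_zero] at h2
        have h3 : (p : E0 p n) ^ (N + (N + 1)) • (T a y - y) =
            (p : E0 p n) ^ N • (x - s - (p : E0 p n) ^ (N + 1) • y) -
              (p : E0 p n) ^ N • (x - s - (p : E0 p n) ^ (N + 1) • T a y) := by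
          rw [pow_add, mul_smul, ← smul_sub]
          congr 1
          rw [smul_sub]
          abel
        rw [h3, hy, h2, sub_zero]
      have h4 := hN _ _ h1
      rw [smul_sub, sub_eq_zero] at h4
      rw [hTp, h4]
    refine ⟨s, hs, x - s - (p : E0 p n) ^ (N + 1) • y, ⟨hy, fun a => ?_⟩,
      (p : E0 p n) ^ N • y, hx1, ?_⟩
    · rw [map_sub, map_sub, hx a, hsH a, pow_succ', mul_smul]
      congr 1
      have h5 := hT a (p : E0 p n) ((p : E0 p n) ^ N • y)
      rw [map_natCast, hx1 a] at h5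
      exact h5
    · rw [← mul_smul, ← pow_succ']
      abel
  refine ⟨hS1fin.toFinset ∪ hS2.toFinset, ?_, ?_⟩
  · intro s hs a
    rcases Finset.mem_union.1 hs with h | h
    · exact hS1H (hS1fin.mem_toFinset.1 h) a
    · exact (hS2.mem_toFinset.1 h).2 a
  · intro x hx J
    induction J with
    | zero => exact ⟨0, x, hx, by simp⟩
    | succ J ih =>
      obtain ⟨c, y, hy, hxy⟩ := ih
      obtain ⟨s, hs, τ, hτ, y1, hy1, hyy⟩ := step y hy
      refine ⟨fun m => c m + ((p : ℤ) ^ J * ((if m = s then 1 else 0) + (if m = τ then 1 else 0))),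
        y1, hy1, ?_⟩
      have hs' : s ∈ hS1fin.toFinset ∪ hS2.toFinset :=
        Finset.mem_union_left _ (hS1fin.mem_toFinset.2 hs)
      have hτ' : τ ∈ hS1fin.toFinset ∪ hS2.toFinset :=
        Finset.mem_union_right _ (hS2.mem_toFinset.2 hτ)
      have hz : ∀ m : M, (p : E0 p n) ^ J • m = ((p : ℤ) ^ J) • m := by
        intro m
        rw [← Int.cast_smul_eq_zsmul (E0 p n)]
        push_cast
        rfl
      rw [hxy, hyy]
      simp only [add_smul, mul_smul, smul_add, Finset.sum_add_distrib, ite_smul, one_smul, zero_smul]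
      rw [← Finset.smul_sum, ← Finset.smul_sum, Finset.sum_ite_eq' _ s, Finset.sum_ite_eq' _ τ,
        if_pos hs', if_pos hτ', hz s, hz τ, pow_succ, mul_smul]
      abel

theorem h1_tors (hn : 2 ≤ n) (htf : ∀ m : M, (p : E0 p n) • m = 0 → m = 0) (N : ℕ) :
    ∃ C : Set (Elt F → M), C.Finite ∧
      (∀ c ∈ C, (∀ a b ab : Elt F, IsMul a b ab → c ab = c a + T a (c b)) ∧
        ∃ y, ∀ a, (p : E0 p n) ^ N • c a = T a y - y) ∧
      ∀ c : Elt F → M, (∀ a b ab : Elt F, IsMul a b ab → c ab = c a + T a (c b)) →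
        (∃ y, ∀ a, (p : E0 p n) ^ N • c a = T a y - y) →
        ∃ c' ∈ C, ∃ z, ∀ a, c a - c' a = T a z - z := by
  classical
  have hTp : ∀ (a : Elt F) (j : ℕ) (m : M), T a ((p : E0 p n) ^ j • m) = (p : E0 p n) ^ j • T a m := by
    intro a j m
    rw [hT, map_pow, map_natCast]
  have htf' : ∀ (j : ℕ) (m : M), (p : E0 p n) ^ j • m = 0 → m = 0 := by
    intro j
    induction j with
    | zero => intro m hm; simpa using hm
    | succ j ih =>
      intro m hm
      rw [pow_succ, mul_smul] at hm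
      exact htf m (ih _ hm)
  let A : Submodule (E0 p n) M :=
    { carrier := {m | ∃ y : M, m = (p : E0 p n) ^ N • y}
      add_mem' := by
        rintro m m' ⟨y, hy⟩ ⟨y', hy'⟩
        exact ⟨y + y', by rw [hy, hy', smul_add]⟩
      zero_mem' := ⟨0, by simp⟩
      smul_mem' := by
        rintro r m ⟨y, hy⟩
        exact ⟨r • y, by rw [hy, smul_comm]⟩ }
  have hAmem : ∀ m, m ∈ A ↔ ∃ y : M, m = (p : E0 p n) ^ N • y := fun m => Iff.rfl
  have hA : ∀ (φ : RingAut (E0 p n)) (f : M ≃+ M), (∀ (r : E0 p n) m, f (r • m) = φ r • f m) →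
      ∀ m, m ∈ A ↔ f m ∈ A := by
    intro φ f hf m
    have hfp : ∀ (j : ℕ) (m : M), f ((p : E0 p n) ^ j • m) = (p : E0 p n) ^ j • f m := by
      intro j m
      rw [hf, phi_p_pow]
    rw [hAmem, hAmem]
    constructor
    · rintro ⟨y, rfl⟩
      exact ⟨f y, hfp _ _⟩
    · rintro ⟨y, hy⟩
      refine ⟨f.symm y, f.injective ?_⟩
      rw [hy, hfp, AddEquiv.apply_symm_apply]
  have hrel := rel_finite hF hH hΓ T hT hn A hA N
  let CC : Set (Elt F → M) := {c | (∀ a b ab : Elt F, IsMul a b ab → c ab = c a + T a (c b)) ∧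
        ∃ y, ∀ a, (p : E0 p n) ^ N • c a = T a y - y}
  let f : (Elt F → M) → M ⧸ A := fun c => if h : ∃ y, ∀ a, (p : E0 p n) ^ N • c a = T a y - y
    then A.mkQ h.choose else 0
  have hf : ∀ c ∈ CC, ∃ y, (∀ a, (p : E0 p n) ^ N • c a = T a y - y) ∧ f c = A.mkQ y := by
    intro c hc
    refine ⟨hc.2.choose, hc.2.choose_spec, ?_⟩
    simp only [f]
    rw [dif_pos hc.2]
  have hfin : (f '' CC).Finite := by
    refine hrel.subset ?_
    rintro _ ⟨c, hc, rfl⟩
    obtain ⟨y, hy, hfy⟩ := hf c hc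
    exact ⟨y, ⟨⟨y, rfl⟩, fun a => ⟨c a, (hy a).symm⟩⟩, hfy.symm⟩
  obtain ⟨C, hC, hCfin, hrep⟩ := exists_rep f CC hfin
  refine ⟨C, hCfin, fun c hc => hC hc, fun c h1 h2 => ?_⟩
  obtain ⟨c', hc', hcc⟩ := hrep c ⟨h1, h2⟩
  obtain ⟨y, hy, hfy⟩ := hf c ⟨h1, h2⟩
  obtain ⟨y', hy', hfy'⟩ := hf c' (hC hc')
  rw [hfy, hfy', Submodule.mkQ_apply, Submodule.mkQ_apply, Submodule.Quotient.eq, hAmem] at hcc
  obtain ⟨z, hz⟩ := hcc
  refine ⟨c', hc', z, fun a => ?_⟩
  rw [← sub_eq_zero]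
  apply htf' N
  rw [smul_sub, smul_sub, smul_sub, hy a, hy' a, ← hTp, ← hz, map_sub]
  abel

end

end Vale.Agent.P261
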