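import Vale.Agent.P261.H399.Cox

/-!
# P261: the first cohomology of `E_(2k)`
-/

namespace Vale.Agent.P261

open MvPowerSeries Vale.Agent.P217

variable {p n : ℕ} [Fact p.Prime] {Γ : FormalGroup (ZMod p)} {F : FormalGroup (E0 p n)}

section

variable (hF : IsUniversalDeformation p n Γ F) (hH : HeightAdapted p n F) (hΓ : IsHonda p n Γ)
include hF hH hΓ

/-- invariants of `E_(2k)/p`, in terms of divisibility. -/
theorem inv_dvd (hn : 2 ≤ n) {k : ℤ} {x : E0 p n}
    (hx : ∀ a : Elt F, (p : E0 p n) ∣ act k a x - x) :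
    (p : E0 p n) ∣ x ∨ ∃ (m : ℕ) (c : ℤ), k = m * ((p : ℤ) - 1) ∧
      (p : E0 p n) ∣ x - c * v1 F ^ m := by
  have hn1 : 1 ≤ n := by omega
  have hp : p.Prime := Fact.out
  by_cases h0 : piH p n 1 le_rfl hn1 x = 0
  · exact Or.inl ((rho_eq_zero_iff hn1 x).1 h0)
  · right
    obtain ⟨m, c, h1, h2⟩ := inv_form hF hH hΓ hn (k := k) (x := x) (fun a => by
      rw [← sub_eq_zero, ← map_sub, rho_eq_zero_iff]; exact hx a) h0
    refine ⟨m, c, ?_, ?_⟩
    · rw [h2, Nat.cast_sub hp.one_le, Nat.cast_one]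
    · rw [← rho_eq_zero_iff hn1, map_sub, h1, sub_self]

omit hΓ in
theorem v1_inv (hn : 2 ≤ n) (a : Elt F) : (p : E0 p n) ∣ act ((p : ℤ) - 1) a (v1 F) - v1 F := by
  have hn1 : 1 ≤ n := by omega
  have hp : p.Prime := Fact.out
  have h5 := w_rel hF hH (h := 1) le_rfl (show 1 < n by omega) a
  simp only [pow_one] at h5
  rw [← rho_eq_zero_iff hn1, map_sub, act_mul, map_mul, sub_eq_zero]
  have h6 : ((a.t ^ ((p : ℤ) - 1) : (E0 p n)ˣ) : E0 p n) = (a.t : E0 p n) ^ (p - 1) := by
    rw [← Units.val_pow_eq_pow_val, ← zpow_natCast, Nat.cast_sub hp.one_le, Nat.cast_one]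
  rw [h6, map_pow, mul_comm]
  exact h5

omit hΓ in
theorem act_v1_pow (m : ℕ) (a : Elt F) :
    act ((m : ℤ) * ((p : ℤ) - 1)) a (v1 F ^ m) = (act ((p : ℤ) - 1) a (v1 F)) ^ m := by
  rw [act_mul, act_mul, map_pow, mul_pow]
  congr 1
  rw [← Units.val_pow_eq_pow_val, ← zpow_natCast, ← zpow_mul, mul_comm (m : ℤ)]

omit hΓ in
theorem v1_pow_inv (hn : 2 ≤ n) (s r : ℕ) (a : Elt F) :
    (p : E0 p n) ^ (s + 1) ∣ act (((p ^ s * r : ℕ) : ℤ) * ((p : ℤ) - 1)) a (v1 F ^ (p ^ s * r)) -
      v1 F ^ (p ^ s * r) := by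
  rw [act_v1_pow hF hH, pow_mul, pow_mul]
  exact (dvd_sub_pow_of_dvd_sub (v1_inv hF hH hn a) s).trans (sub_dvd_pow_sub_pow _ _ r)

theorem v1_pow_ne (hn : 2 ≤ n) (m : ℕ) : ¬ (p : E0 p n) ∣ v1 F ^ m := by
  have hn1 : 1 ≤ n := by omega
  have hp : p.Prime := Fact.out
  intro hd
  have hv : (p : E0 p n) ∣ v1 F := (p_prime hn1).dvd_of_dvd_pow hd
  rw [← rho_eq_zero_iff hn1] at hv
  have hhn : 1 < n := by omega
  have : IsDomain (MvPowerSeries (Fin (n - 1)) (GaloisField p n)) := NoZeroDivisors.to_isDomain _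
  have hΓ₀ := hΓ.hondaLike hn1 (GaloisField p n) (algebraMap (ZMod p) (GaloisField p n))
  obtain ⟨A, hA⟩ := exists_famFG' hn1 hΓ₀ hF hH 1 le_rfl hhn
  obtain ⟨e, heu, he⟩ := A.V_one
  have hp0 : p ^ 1 ≠ 0 := pow_ne_zero _ hp.ne_zero
  have h1 : piH p n 1 le_rfl hn1 (v1 F) = PowerSeries.coeff (p ^ 1) (multSeries A.G p) := by
    rw [hA, ← fbMap_multSeries, PowerSeries.coeff_map, v1, pow_one]
  rw [hv, A.series, PowerSeries.coeff_subst_X_pow hp0, if_pos (dvd_refl _),
    Nat.div_self (Nat.pos_of_ne_zero hp0)] at h1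
  have h2 : PowerSeries.coeff 1 A.V = 0 := h1.symm
  rw [he] at h2
  exact mul_ne_zero heu.ne_zero (prime_X _).ne_zero h2

/-- weights which are not nonnegative multiples of `p - 1`. -/
theorem h1_zero_aux (hn : 2 ≤ n) {k : ℤ} (hk : ∀ m : ℕ, k ≠ m * ((p : ℤ) - 1)) (N : ℕ)
    {c : Elt F → E0 p n} (hc : IsPrincipal k (fun a => (p : E0 p n) ^ N * c a)) :
    IsPrincipal k c := by
  induction N with
  | zero =>
    obtain ⟨x, hx⟩ := hc
    replace hx : ∀ a, (p : E0 p n) ^ 0 * c a = act k a x - x := hx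
    exact ⟨x, fun a => by rw [← hx a, pow_zero, one_mul]⟩
  | succ N ih =>
    apply ih
    obtain ⟨y, hy⟩ := hc
    replace hy : ∀ a, (p : E0 p n) ^ (N + 1) * c a = act k a y - y := hy
    rcases inv_dvd hF hH hΓ hn (k := k) (x := y) (fun a => by
      rw [← hy a, pow_succ', mul_assoc]; exact dvd_mul_right _ _) with ⟨y', rfl⟩ | ⟨m, -, hm, -⟩
    · refine ⟨y', fun a => ?_⟩
      have h1 := hy a
      rw [act_p, ← mul_sub, pow_succ', mul_assoc] at h1
      exact mul_left_cancel₀ p_ne_zero h1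
    · exact absurd hm (hk m)

/-- weight zero: `H^1` is torsion-free. -/
theorem h1_tf_aux (hn : 2 ≤ n) (N : ℕ)
    {c : Elt F → E0 p n} (hc : IsPrincipal 0 (fun a => (p : E0 p n) ^ N * c a)) :
    IsPrincipal 0 c := by
  have hp : p.Prime := Fact.out
  induction N with
  | zero =>
    obtain ⟨x, hx⟩ := hc
    replace hx : ∀ a, (p : E0 p n) ^ 0 * c a = act 0 a x - x := hx
    exact ⟨x, fun a => by rw [← hx a, pow_zero, one_mul]⟩
  | succ N ih =>
    apply ih
    obtain ⟨y, hy⟩ := hc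
    replace hy : ∀ a, (p : E0 p n) ^ (N + 1) * c a = act 0 a y - y := hy
    rcases inv_dvd hF hH hΓ hn (k := 0) (x := y) (fun a => by
      rw [← hy a, pow_succ', mul_assoc]; exact dvd_mul_right _ _) with ⟨y', rfl⟩ | ⟨m, d, hm, y', hy'⟩
    · refine ⟨y', fun a => ?_⟩
      have h1 := hy a
      rw [act_p, ← mul_sub, pow_succ', mul_assoc] at h1
      exact mul_left_cancel₀ p_ne_zero h1
    · have hm0 : m = 0 := by
        have h2 : (p : ℤ) - 1 ≠ 0 := by
          have := hp.two_le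
          omega
        exact_mod_cast (mul_eq_zero.1 hm.symm).resolve_right h2
      rw [hm0, pow_zero, mul_one] at hy'
      have hyy : y = (d : E0 p n) + (p : E0 p n) * y' := by rw [← hy']; ring
      refine ⟨y', fun a => ?_⟩
      have h1 := hy a
      have h3 : act 0 a (d : E0 p n) = (d : E0 p n) := by
        rw [act_mul, zpow_zero, Units.val_one, one_mul, map_intCast]
      rw [hyy, act_add, act_p, h3, pow_succ', mul_assoc] at h1
      apply mul_left_cancel₀ (p_ne_zero (p := p) (n := n))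
      rw [h1]
      ring

/-- the inductive step for weights `m (p - 1)`. -/
theorem h1_cyc_aux (hn : 2 ≤ n) {m : ℕ} {e : ℕ} {x₁ : E0 p n} {c₁ : Elt F → E0 p n}
    (hx₁ : (p : E0 p n) ∣ x₁ - v1 F ^ m)
    (hc₁ : ∀ a, (p : E0 p n) ^ e * c₁ a = act (m * ((p : ℤ) - 1)) a x₁ - x₁)
    (hmax : ∀ (e' : ℕ) (x : E0 p n), (p : E0 p n) ∣ x - v1 F ^ m →
      (∀ a : Elt F, (p : E0 p n) ^ e' ∣ act (m * ((p : ℤ) - 1)) a x - x) → e' ≤ e)
    (N : ℕ) {c : Elt F → E0 p n}
    (hc : IsPrincipal (m * ((p : ℤ) - 1)) (fun a => (p : E0 p n) ^ N * c a)) :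
    ∃ j : ℤ, IsPrincipal (m * ((p : ℤ) - 1)) (fun a => c a - (j : E0 p n) * c₁ a) := by
  have hp : p.Prime := Fact.out
  have hn1 : 1 ≤ n := by omega
  induction N generalizing c with
  | zero =>
    obtain ⟨x, hx⟩ := hc
    replace hx : ∀ a, (p : E0 p n) ^ 0 * c a = act (m * ((p : ℤ) - 1)) a x - x := hx
    exact ⟨0, x, fun a => by rw [← hx a, pow_zero]; simp⟩
  | succ N ih =>
    obtain ⟨y, hy⟩ := hc
    replace hy : ∀ a, (p : E0 p n) ^ (N + 1) * c a = act (m * ((p : ℤ) - 1)) a y - y := hy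
    rcases inv_dvd hF hH hΓ hn (k := m * ((p : ℤ) - 1)) (x := y) (fun a => by
      rw [← hy a, pow_succ', mul_assoc]; exact dvd_mul_right _ _) with ⟨y', rfl⟩ | ⟨m', u, hm', hu⟩
    · apply ih
      refine ⟨y', fun a => ?_⟩
      have h1 := hy a
      rw [act_p, ← mul_sub, pow_succ', mul_assoc] at h1
      exact mul_left_cancel₀ p_ne_zero h1
    · have hmm : m' = m := by
        have h2 : (p : ℤ) - 1 ≠ 0 := by
          have := hp.two_le
          omega
        exact_mod_cast (mul_right_cancel₀ h2 hm').symm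
      subst hmm
      by_cases hpu : (p : ℤ) ∣ u
      · -- then `p ∣ y`
        have hpy : (p : E0 p n) ∣ y := by
          obtain ⟨u', rfl⟩ := hpu
          have h3 : (p : E0 p n) ∣ ((p * u' : ℤ) : E0 p n) * v1 F ^ m' := by
            push_cast
            rw [mul_assoc]
            exact dvd_mul_right _ _
          have := dvd_add hu h3
          rwa [sub_add_cancel] at this
        obtain ⟨y', rfl⟩ := hpy
        apply ih
        refine ⟨y', fun a => ?_⟩
        have h1 := hy a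
        rw [act_p, ← mul_sub, pow_succ', mul_assoc] at h1
        exact mul_left_cancel₀ p_ne_zero h1
      · -- `u` is prime to `p`
        have hcop : IsCoprime (p : ℤ) u :=
          ((Nat.prime_iff_prime_int.1 hp).irreducible.coprime_iff_not_dvd).2 hpu
        obtain ⟨b, u', hb⟩ := hcop
        have hNe : N + 1 ≤ e := by
          apply hmax (N + 1) ((u' : E0 p n) * y)
          · have h3 : (u' : E0 p n) * y - v1 F ^ m' = (u' : E0 p n) * (y - u * v1 F ^ m') -
                (p : E0 p n) * ((b : E0 p n) * v1 F ^ m') := by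
              have h4 := congrArg (Int.cast : ℤ → E0 p n) hb
              push_cast at h4
              linear_combination (v1 F ^ m') * h4
            rw [h3]
            exact dvd_sub (hu.mul_left _) (dvd_mul_right _ _)
          · intro a
            rw [act_int, ← mul_sub, ← hy a]
            exact (dvd_mul_right _ _).mul_left _
        obtain ⟨f, rfl⟩ := Nat.exists_eq_add_of_le hNe
        obtain ⟨z, hz⟩ : (p : E0 p n) ∣ y - u * x₁ := by
          have h3 : y - u * x₁ = (y - u * v1 F ^ m') - u * (x₁ - v1 F ^ m') := by ring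
          rw [h3]
          exact dvd_sub hu (hx₁.mul_left _)
        obtain ⟨j, hj⟩ := ih (c := fun a => c a - ((u * (p : ℤ) ^ f : ℤ) : E0 p n) * c₁ a) (by
          refine ⟨z, fun a => ?_⟩
          have h1 := hy a
          have h2 := hc₁ a
          have hyz : y = u * x₁ + p * z := by rw [← hz]; ring
          rw [hyz, act_add, act_int, act_p] at h1
          apply mul_left_cancel₀ (p_ne_zero (p := p) (n := n))
          push_cast
          simp only [pow_add, pow_one] at h1 h2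
          linear_combination h1 - (u : E0 p n) * h2)
        refine ⟨u * (p : ℤ) ^ f + j, ?_⟩
        obtain ⟨w, hw⟩ := hj
        refine ⟨w, fun a => ?_⟩
        rw [← hw a]
        push_cast
        ring

end

end Vale.Agent.P261
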