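import Vale.Agent.P217.MathlibUsed

/-!
# P261: infinitely many substitutions cannot fix a nonconstant power series
-/

namespace Vale.Agent.P261

open Polynomial in
theorem eval_const {κ : Type*} [Field κ] (Φ : PowerSeries κ →+* PowerSeries κ)
    (hC : ∀ c, Φ (PowerSeries.C c) = PowerSeries.C c) (P : κ[X]) :
    Φ (P : PowerSeries κ) = (P.map (PowerSeries.C : κ →+* PowerSeries κ)).eval (Φ PowerSeries.X) := by
  induction P using Polynomial.induction_on' with
  | add p q hp hq => rw [Polynomial.coe_add, map_add, hp, hq, Polynomial.map_add, Polynomial.eval_add]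
  | monomial n a =>
    rw [Polynomial.map_monomial, Polynomial.eval_monomial, ← Polynomial.C_mul_X_pow_eq_monomial,
      Polynomial.coe_mul, Polynomial.coe_pow, Polynomial.coe_X, Polynomial.coe_C, map_mul, map_pow, hC]

theorem ident_thm {κ : Type*} [Field κ] [Finite κ] (z : PowerSeries κ) {m₀ : ℕ} (hm₀ : 1 ≤ m₀)
    (hz : PowerSeries.coeff m₀ z ≠ 0) (Φ : ℕ → PowerSeries κ →+* PowerSeries κ)
    (hC : ∀ i c, Φ i (PowerSeries.C c) = PowerSeries.C c)
    (hx : ∀ i, ∃ u : PowerSeries κ, IsUnit u ∧ Φ i PowerSeries.X = PowerSeries.X * u)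
    (hfix : ∀ i j, Φ i z = Φ j z)
    (hinj : ∀ i j, i ≠ j → Φ i PowerSeries.X ≠ Φ j PowerSeries.X) : False := by
  classical
  have hex : ∃ j, 1 ≤ j ∧ ∃ k, ((k + j).choose j : κ) * PowerSeries.coeff (k + j) z ≠ 0 :=
    ⟨m₀, hm₀, 0, by simpa using hz⟩
  obtain ⟨j₀, ⟨hj1, hk⟩, hjmin⟩ : ∃ j, (1 ≤ j ∧ ∃ k, ((k + j).choose j : κ) * PowerSeries.coeff (k + j) z ≠ 0) ∧
      ∀ j' < j, ¬ (1 ≤ j' ∧ ∃ k, ((k + j').choose j' : κ) * PowerSeries.coeff (k + j') z ≠ 0) :=
    ⟨Nat.find hex, Nat.find_spec hex, fun j' hj' => Nat.find_min hex hj'⟩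
  obtain ⟨r, hr, hrmin⟩ : ∃ r, ((r + j₀).choose j₀ : κ) * PowerSeries.coeff (r + j₀) z ≠ 0 ∧
      ∀ k < r, ¬ ((k + j₀).choose j₀ : κ) * PowerSeries.coeff (k + j₀) z ≠ 0 :=
    ⟨Nat.find hk, Nat.find_spec hk, fun j' hj' => Nat.find_min hk hj'⟩
  obtain ⟨i, j, hij, hfun⟩ := Finite.exists_ne_map_eq_of_infinite
    (fun i : ℕ => fun m : Fin (r + 1) => PowerSeries.coeff (m : ℕ) (Φ i PowerSeries.X))
  set δ : PowerSeries κ := Φ j PowerSeries.X - Φ i PowerSeries.X with hδ
  have hδ0 : δ ≠ 0 := sub_ne_zero.2 (hinj j i (Ne.symm hij))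
  have hδr : PowerSeries.X ^ (r + 1) ∣ δ := by
    rw [PowerSeries.X_pow_dvd_iff]
    intro m hm
    have := congrFun hfun ⟨m, hm⟩
    rw [hδ, map_sub, sub_eq_zero]
    exact this.symm
  obtain ⟨e, δ', hδ', hndvd⟩ : ∃ (e : ℕ) (δ' : PowerSeries κ), δ = PowerSeries.X ^ e * δ' ∧
      ¬ PowerSeries.X ∣ δ' := by
    obtain ⟨c, hc1, hc2⟩ := (FiniteMultiplicity.of_not_isUnit
      (PowerSeries.X_prime (R := κ)).not_isUnit hδ0).exists_eq_pow_mul_and_not_dvd
    exact ⟨_, c, hc1, hc2⟩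
  have hδ'u : IsUnit δ' := by
    rw [PowerSeries.X_dvd_iff] at hndvd
    exact PowerSeries.isUnit_iff_constantCoeff.2 (isUnit_iff_ne_zero.2 hndvd)
  set M := r + e * j₀ + j₀ + 1 with hM
  set P := PowerSeries.trunc M z with hP
  obtain ⟨z', hz'⟩ : PowerSeries.X ^ M ∣ z - (P : PowerSeries κ) := by
    rw [PowerSeries.X_pow_dvd_iff]
    intro m hm
    rw [map_sub, Polynomial.coeff_coe, hP, PowerSeries.coeff_trunc, if_pos hm, sub_self]
  have hPc : ∀ m, m < M → P.coeff m = PowerSeries.coeff m z := by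
    intro m hm
    rw [hP, PowerSeries.coeff_trunc, if_pos hm]
  have hPc' : ∀ m, ¬ m < M → P.coeff m = 0 := by
    intro m hm
    rw [hP, PowerSeries.coeff_trunc, if_neg hm]
  set Q := P.map (PowerSeries.C : κ →+* PowerSeries κ) with hQ
  have hdiff : ∀ i', PowerSeries.X ^ M ∣ Φ i' z - Q.eval (Φ i' PowerSeries.X) := by
    intro i'
    obtain ⟨u, -, hu⟩ := hx i'
    rw [← eval_const (Φ i') (hC i') P, ← map_sub, hz', map_mul, map_pow, hu, mul_pow]
    exact ((dvd_mul_right _ _).mul_right _)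
  have hmain : PowerSeries.X ^ M ∣ Q.eval (Φ j PowerSeries.X) - Q.eval (Φ i PowerSeries.X) := by
    have h1 := dvd_sub (hdiff i) (hdiff j)
    rw [hfix i j] at h1
    have e1 : Φ j z - Q.eval (Φ i PowerSeries.X) - (Φ j z - Q.eval (Φ j PowerSeries.X)) =
      Q.eval (Φ j PowerSeries.X) - Q.eval (Φ i PowerSeries.X) := by ring
    rwa [e1] at h1
  -- Taylor expansion
  set f := Φ i PowerSeries.X with hf
  have hj : Φ j PowerSeries.X = δ + f := by rw [hδ]; ring
  rw [hj, ← Polynomial.taylor_eval] at hmain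
  have hco : ∀ m, (Polynomial.taylor f Q).coeff m = (Polynomial.hasseDeriv m Q).eval f :=
    fun m => Polynomial.taylor_coeff _ _ _
  have hT : ∃ B, (Polynomial.taylor f Q).eval δ = Q.eval f +
      (δ ^ j₀ * (Polynomial.hasseDeriv j₀ Q).eval f + δ ^ (j₀ + 1) * B) := by
    obtain ⟨B, hB⟩ : Polynomial.X ^ (j₀ + 1) ∣ Polynomial.taylor f Q - Polynomial.C (Q.eval f) -
        Polynomial.C ((Polynomial.hasseDeriv j₀ Q).eval f) * Polynomial.X ^ j₀ := by
      rw [Polynomial.X_pow_dvd_iff]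
      intro d hd
      rw [Polynomial.coeff_sub, Polynomial.coeff_sub, Polynomial.coeff_C_mul_X_pow, hco,
        Polynomial.coeff_C]
      rcases Nat.eq_zero_or_pos d with rfl | hd0
      · rw [if_pos rfl, if_neg (by omega), Polynomial.hasseDeriv_zero]
        simp
      · rw [if_neg (by omega)]
        rcases Nat.lt_succ_iff_lt_or_eq.1 hd with h1 | h1
        · rw [if_neg (by omega)]
          have : Polynomial.hasseDeriv d Q = 0 := by
            ext1 k
            rw [Polynomial.hasseDeriv_coeff, hQ, Polynomial.coeff_map, Polynomial.coeff_zero]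
            by_cases hk2 : k + d < M
            · rw [hPc _ hk2, ← map_natCast (PowerSeries.C : κ →+* PowerSeries κ), ← map_mul]
              by_contra hne
              exact hjmin d h1 ⟨hd0, k, fun h0 => hne (by rw [h0, map_zero])⟩
            · rw [hPc' _ hk2, map_zero, mul_zero]
          rw [this]
          simp
        · subst h1
          rw [if_pos rfl]
          simp
    refine ⟨B.eval δ, ?_⟩
    have h2 := congrArg (Polynomial.eval δ) hB
    simp only [Polynomial.eval_sub, Polynomial.eval_mul, Polynomial.eval_C, Polynomial.eval_pow,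
      Polynomial.eval_X] at h2
    linear_combination h2
  obtain ⟨B, hB⟩ := hT
  rw [hB, add_sub_cancel_left] at hmain
  -- the leading term
  obtain ⟨u, huu, hu⟩ := hx i
  obtain ⟨Q', hQ'⟩ : Polynomial.X ^ r ∣ Polynomial.hasseDeriv j₀ Q := by
    rw [Polynomial.X_pow_dvd_iff]
    intro d hd
    rw [Polynomial.hasseDeriv_coeff, hQ, Polynomial.coeff_map, hPc _ (by omega),
      ← map_natCast (PowerSeries.C : κ →+* PowerSeries κ), ← map_mul, not_not.1 (hrmin d hd), map_zero]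
  have hQ0 : PowerSeries.constantCoeff (Q'.coeff 0) ≠ 0 := by
    have h3 : (Polynomial.hasseDeriv j₀ Q).coeff r = (Polynomial.X ^ r * Q').coeff r := by rw [hQ']
    rw [Polynomial.hasseDeriv_coeff, hQ, Polynomial.coeff_map, hPc _ (by
        have : 0 ≤ e * j₀ := Nat.zero_le _
        omega),
      ← map_natCast (PowerSeries.C : κ →+* PowerSeries κ), ← map_mul, Polynomial.coeff_X_pow_mul',
      if_pos le_rfl, Nat.sub_self] at h3
    rw [← h3, PowerSeries.constantCoeff_C]
    exact hr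
  obtain ⟨Q'', hQ''⟩ : Polynomial.X ∣ Q' - Polynomial.C (Q'.coeff 0) := by
    rw [Polynomial.X_dvd_iff]; simp
  obtain ⟨δ'', hδ''⟩ := hδr
  have hA : (Polynomial.hasseDeriv j₀ Q).eval f + δ * B = PowerSeries.X ^ r *
      (u ^ r * (Q'.coeff 0 + f * Q''.eval f) + PowerSeries.X * (δ'' * B)) := by
    have h4 : Q'.eval f = Q'.coeff 0 + f * Q''.eval f := by
      have := congrArg (Polynomial.eval f) hQ''
      simp only [Polynomial.eval_sub, Polynomial.eval_mul, Polynomial.eval_C,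
        Polynomial.eval_X] at this
      linear_combination this
    rw [hQ', Polynomial.eval_mul, Polynomial.eval_pow, Polynomial.eval_X, h4, hδ'']
    nth_rewrite 1 [hf]
    rw [hu, mul_pow]
    ring
  have hU : IsUnit (u ^ r * (Q'.coeff 0 + f * Q''.eval f) + PowerSeries.X * (δ'' * B)) := by
    rw [PowerSeries.isUnit_iff_constantCoeff]
    have hf0 : PowerSeries.constantCoeff f = 0 := by rw [hf, hu]; simp
    have hu0 : PowerSeries.constantCoeff u ≠ 0 :=
      (PowerSeries.isUnit_iff_constantCoeff.1 huu).ne_zero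
    simp only [map_add, map_mul, map_pow, hf0, PowerSeries.constantCoeff_X, zero_mul, add_zero]
    exact isUnit_iff_ne_zero.2 (mul_ne_zero (pow_ne_zero _ hu0) hQ0)
  have hfin : δ ^ j₀ * (Polynomial.hasseDeriv j₀ Q).eval f + δ ^ (j₀ + 1) * B =
      PowerSeries.X ^ (e * j₀ + r) * (δ' ^ j₀ *
        (u ^ r * (Q'.coeff 0 + f * Q''.eval f) + PowerSeries.X * (δ'' * B))) := by
    have : δ ^ j₀ * (Polynomial.hasseDeriv j₀ Q).eval f + δ ^ (j₀ + 1) * B =
      δ ^ j₀ * ((Polynomial.hasseDeriv j₀ Q).eval f + δ * B) := by ring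
    rw [this, hA]
    nth_rewrite 1 [hδ']
    rw [mul_pow, ← pow_mul, pow_add]
    ring
  rw [hfin] at hmain
  have hV := (hδ'u.pow j₀).mul hU
  generalize δ' ^ j₀ * (u ^ r * (Q'.coeff 0 + f * Q''.eval f) + PowerSeries.X * (δ'' * B)) = V at hmain hV
  obtain ⟨t, ht⟩ := hmain
  have hMe : M = (e * j₀ + r) + (j₀ + 1) := by rw [hM]; ring
  have ht' : PowerSeries.X ^ (e * j₀ + r) * V =
      PowerSeries.X ^ (e * j₀ + r) * (PowerSeries.X ^ (j₀ + 1) * t) := by
    rw [← mul_assoc, ← pow_add, ← hMe]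
    exact ht
  have h5 := mul_left_cancel₀ (pow_ne_zero _ (PowerSeries.X_ne_zero)) ht'
  have h6 : PowerSeries.constantCoeff V = 0 := by
    rw [h5]
    simp
  exact (PowerSeries.isUnit_iff_constantCoeff.1 hV).ne_zero h6

end Vale.Agent.P261
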