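import Vale.Agent.P261.H399.Unit

/-!
# P261: invariants of `E_(2k)/p`
-/

namespace Vale.Agent.P261

open MvPowerSeries Vale.Agent.P217

variable {p n : ℕ} [Fact p.Prime] {Γ : FormalGroup (ZMod p)} {F : FormalGroup (E0 p n)}

theorem heightIdeal_one : heightIdeal p n 1 = Ideal.span {(p : E0 p n)} := by
  rw [heightIdeal, if_neg one_ne_zero]
  congr 1
  ext x
  simp

theorem rho_eq_zero_iff (hn1 : 1 ≤ n) (x : E0 p n) : piH p n 1 le_rfl hn1 x = 0 ↔ (p : E0 p n) ∣ x := by
  rw [← RingHom.mem_ker, ker_piH, heightIdeal_one, Ideal.mem_span_singleton]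

theorem act_mul (k : ℤ) (a : Elt F) (x : E0 p n) : act k a x = ((a.t ^ k : (E0 p n)ˣ) : E0 p n) * a.φ x := rfl

section

variable (hF : IsUniversalDeformation p n Γ F) (hH : HeightAdapted p n F) (hΓ : IsHonda p n Γ)
include hF hH hΓ

theorem exists_form (hn : 2 ≤ n) {k : ℤ} {x : E0 p n}
    (hx : ∀ a : Elt F, piH p n 1 le_rfl (by omega) (act k a x) = piH p n 1 le_rfl (by omega) x)
    (hx0 : piH p n 1 le_rfl (by omega) x ≠ 0) :
    ∃ (m : ℕ) (y : (E0 p n)ˣ), piH p n 1 le_rfl (by omega) x =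
      piH p n 1 le_rfl (by omega) y * piH p n 1 le_rfl (by omega) (v1 F) ^ m ∧
      k = m * ((p - 1 : ℕ) : ℤ) := by
  classical
  have hp : p.Prime := Fact.out
  have hn1 : 1 ≤ n := by omega
  have hhn : 1 < n := by omega
  have hF1 : F.IsComm := hF.comm
  have : IsDomain (MvPowerSeries (Fin (n - 1)) (GaloisField p n)) := NoZeroDivisors.to_isDomain _
  have hΓ₀ := hΓ.hondaLike hn1 (GaloisField p n) (algebraMap (ZMod p) (GaloisField p n))
  obtain ⟨A, hA⟩ := exists_famFG' hn1 hΓ₀ hF hH 1 le_rfl hhn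
  set ρ := piH p n 1 le_rfl hn1 with hρ
  have hρp : ρ (p : E0 p n) = 0 := piH_p 1 le_rfl hn1
  -- the invariant radical ideal
  set J : Ideal (E0 p n) := (Ideal.span {(p : E0 p n), x}).radical with hJ
  have hinv : IsInvariant p n F J := by
    intro φ g hg
    let a : Elt F := ⟨φ, g, hg⟩
    rw [hJ, Ideal.map_radical_of_surjective (f := (φ : E0 p n →+* E0 p n)) φ.surjective
      (by
        intro y hy
        have hy0 : y = 0 := φ.injective (by rw [map_zero]; exact hy)
        rw [hy0]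
        exact Ideal.zero_mem _)]
    congr 1
    rw [Ideal.map_span, Set.image_pair]
    have h1 : (φ : E0 p n →+* E0 p n) (p : E0 p n) = p := map_natCast _ _
    rw [h1]
    have h2 := hx a
    rw [← sub_eq_zero, ← map_sub, rho_eq_zero_iff] at h2
    obtain ⟨z, hz⟩ := h2
    have h3 : (φ : E0 p n →+* E0 p n) x = (((a.t ^ k)⁻¹ : (E0 p n)ˣ) : E0 p n) * (x + p * z) := by
      rw [← hz, act_mul]
      change a.φ x = _
      rw [add_sub_cancel, ← mul_assoc, Units.inv_mul, one_mul]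
    apply le_antisymm
    · rw [Ideal.span_le]
      rintro y (rfl | rfl)
      · exact Ideal.subset_span (by simp)
      · rw [h3, SetLike.mem_coe, Ideal.mem_span_pair]
        exact ⟨(((a.t ^ k)⁻¹ : (E0 p n)ˣ) : E0 p n) * z, (((a.t ^ k)⁻¹ : (E0 p n)ˣ) : E0 p n), by ring⟩
    · rw [Ideal.span_le]
      rintro y (rfl | rfl)
      · exact Ideal.subset_span (by simp)
      · rw [SetLike.mem_coe, Ideal.mem_span_pair]
        refine ⟨-z, ((a.t ^ k : (E0 p n)ˣ) : E0 p n), ?_⟩
        rw [h3, ← mul_assoc ((a.t ^ k : (E0 p n)ˣ) : E0 p n), Units.mul_inv]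
        ring
  set i0 : Fin (n - 1) := ⟨0, Nat.sub_pos_of_lt A.h_lt_n⟩ with hi0
  have hρX : ρ (X i0) = X i0 := by
    have h1 := piH_X_emb (p := p) 1 le_rfl hn1 i0
    have h2 : embH n 1 le_rfl hn1 i0 = i0 := by
      apply Fin.ext
      rw [val_embH]
    rw [h2] at h1
    exact h1
  have hdvd : ∃ N, ρ x ∣ X i0 ^ N := by
    rcases (chai hn1 Γ hΓ F hF hH J).2.1 ⟨Ideal.radical_isRadical _, hinv⟩ with htop | ⟨h, hh, hJh⟩
    · rw [hJ, Ideal.radical_eq_top, Ideal.eq_top_iff_one, Ideal.mem_span_pair] at htop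
      obtain ⟨b, c, hbc⟩ := htop
      refine ⟨0, ρ c, ?_⟩
      have := congrArg ρ hbc
      rw [map_add, map_mul, map_mul, hρp, mul_zero, zero_add, map_one] at this
      rw [pow_zero, ← this, mul_comm]
    · have hpJ : (p : E0 p n) ∈ J := Ideal.le_radical (Ideal.subset_span (by simp))
      have hxJ : x ∈ J := Ideal.le_radical (Ideal.subset_span (by simp))
      have hh2 : 2 ≤ h := by
        by_contra hlt
        have : h = 0 ∨ h = 1 := by omega
        rcases this with rfl | rfl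
        · rw [hJh, heightIdeal, if_pos rfl, Ideal.mem_bot] at hpJ
          have h5 : IsDomain (E0 p n) := NoZeroDivisors.to_isDomain _
          have : (p : E0 p n) ≠ 0 := by
            intro h0
            have h6 := congrArg MvPowerSeries.constantCoeff h0
            rw [map_natCast, map_zero] at h6
            exact WittVector.p_nonzero p (GaloisField p n) h6
          exact this hpJ
        · rw [hJh, heightIdeal_one, Ideal.mem_span_singleton, ← rho_eq_zero_iff hn1] at hxJ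
          exact hx0 hxJ
      have hXJ : (X i0 : E0 p n) ∈ J := by
        rw [hJh, heightIdeal, if_neg (by omega)]
        refine Ideal.subset_span (Or.inr ⟨i0, ?_, rfl⟩)
        change 0 + 1 < h
        omega
      obtain ⟨N, hN⟩ := hXJ
      rw [Ideal.mem_span_pair] at hN
      obtain ⟨b, c, hbc⟩ := hN
      refine ⟨N, ρ c, ?_⟩
      have := congrArg ρ hbc
      rw [map_add, map_mul, map_mul, hρp, mul_zero, zero_add, map_pow, hρX] at this
      rw [← this, mul_comm]
  obtain ⟨N, hN⟩ := hdvd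
  obtain ⟨m, -, hm⟩ := (dvd_prime_pow (prime_X i0) N).1 hN
  obtain ⟨e, heu, he⟩ := A.V_one
  have hp0 : p ^ 1 ≠ 0 := pow_ne_zero _ hp.ne_zero
  have hρv : ρ (v1 F) = e * X i0 := by
    have h1 : ρ (v1 F) = PowerSeries.coeff (p ^ 1) (multSeries A.G p) := by
      rw [hA, ← fbMap_multSeries, PowerSeries.coeff_map, v1, pow_one]
    rw [h1, A.series, PowerSeries.coeff_subst_X_pow hp0, if_pos (dvd_refl _),
      Nat.div_self (Nat.pos_of_ne_zero hp0), ← he]
    rfl
  have hρv0 : ρ (v1 F) ≠ 0 := by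
    rw [hρv]
    exact mul_ne_zero heu.ne_zero (prime_X i0).ne_zero
  have hass : Associated (ρ (v1 F) ^ m) (ρ x) := by
    refine Associated.trans ?_ hm.symm
    rw [hρv]
    exact (associated_unit_mul_left _ _ heu).pow_pow
  obtain ⟨u, hu⟩ := hass
  obtain ⟨y, hy⟩ := piH_surjective (p := p) (n := n) 1 le_rfl hn1
    (u : MvPowerSeries (Fin (n - 1)) (GaloisField p n))
  have hyu : IsUnit y := by
    apply C0.isUnit_of_red
    rw [← constantCoeff_piH 1 le_rfl hn1, hy]
    exact u.isUnit.map constantCoeff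
  obtain ⟨y, rfl⟩ := hyu
  have hxy : ρ x = ρ y * ρ (v1 F) ^ m := by
    rw [← hu, mul_comm]
    congr 1
    exact hy.symm
  refine ⟨m, y, hxy, ?_⟩
  by_contra hk
  have hk' : k - m * ((p - 1 : ℕ) : ℤ) ≠ 0 := sub_ne_zero.2 hk
  have hw := fun a : Elt F => w_rel hF hH (h := 1) le_rfl hhn a
  have hfin : ∀ a : Elt F, ρ (act (k - m * ((p - 1 : ℕ) : ℤ)) a y) = ρ y := by
    intro a
    have h1 := hx a
    have h2 : ρ (a.φ x) = ρ (a.φ ((y : E0 p n) * v1 F ^ m)) := by
      have h3 : ρ (x - y * v1 F ^ m) = 0 := by rw [map_sub, map_mul, map_pow, hxy, sub_self]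
      have h4 := piH_phi_of_mem hH le_rfl hn1 a h3
      rw [map_sub, map_sub, sub_eq_zero] at h4
      exact h4
    have h5 := hw a
    simp only [pow_one] at h5
    rw [act_mul, map_mul, h2, map_mul, map_mul, map_pow, map_pow, hxy] at h1
    have h6 : ((a.t ^ k : (E0 p n)ˣ) : E0 p n) =
        ((a.t ^ (k - m * ((p - 1 : ℕ) : ℤ)) : (E0 p n)ˣ) : E0 p n) * ((a.t : E0 p n) ^ (p - 1)) ^ m := by
      rw [← Units.val_pow_eq_pow_val, ← Units.val_pow_eq_pow_val, ← Units.val_mul, ← pow_mul,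
        ← zpow_natCast, ← zpow_add]
      congr 2
      push_cast
      ring
    rw [h6, map_mul, map_pow, map_pow] at h1
    rw [act_mul, map_mul]
    apply mul_right_cancel₀ (pow_ne_zero m hρv0)
    rw [← h1]
    have h7 : ρ (v1 F) = ρ (a.φ (v1 F)) * ρ a.t ^ (p - 1) := h5.symm
    nth_rewrite 1 [h7]
    rw [mul_pow]
    ring
  refine no_unit hF hH hΓ (h := n - 1) (by omega) (by omega) hk' y ?_
  intro a
  have h1 := hfin a
  rw [← sub_eq_zero, ← map_sub, rho_eq_zero_iff] at h1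
  obtain ⟨z, hz⟩ := h1
  rw [← sub_eq_zero, ← map_sub, hz, map_mul, piH_p, zero_mul]

theorem red_act_zero (hn : 2 ≤ n) (a : Elt F) (x : E0 p n)
    (h : piH p n 1 le_rfl (by omega) (act 0 a x) = piH p n 1 le_rfl (by omega) x) :
    red p n (a.φ x) = red p n x := by
  have h1 := congrArg constantCoeff h
  rw [constantCoeff_piH, constantCoeff_piH, act_mul, zpow_zero, Units.val_one, one_mul] at h1
  exact h1

/-- the invariants of `E_(2k)/p`. -/
theorem inv_form (hn : 2 ≤ n) {k : ℤ} {x : E0 p n}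
    (hx : ∀ a : Elt F, piH p n 1 le_rfl (by omega) (act k a x) = piH p n 1 le_rfl (by omega) x)
    (hx0 : piH p n 1 le_rfl (by omega) x ≠ 0) :
    ∃ (m : ℕ) (c : ℤ), piH p n 1 le_rfl (by omega) x =
      piH p n 1 le_rfl (by omega) ((c : E0 p n) * v1 F ^ m) ∧
      k = m * ((p - 1 : ℕ) : ℤ) := by
  have hp : p.Prime := Fact.out
  have hn1 : 1 ≤ n := by omega
  have : IsDomain (MvPowerSeries (Fin (n - 1)) (GaloisField p n)) := NoZeroDivisors.to_isDomain _
  have hF1 : F.IsComm := hF.comm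
  obtain ⟨m, y, hxy, hk⟩ := exists_form hF hH hΓ hn hx hx0
  refine ⟨m, ?_⟩
  set ρ := piH p n 1 le_rfl hn1 with hρ
  have hv0 : ρ (v1 F) ^ m ≠ 0 := by
    intro h0
    rw [h0, mul_zero] at hxy
    exact hx0 hxy
  -- `y` is invariant modulo `p`
  have hyinv : ∀ a : Elt F, ρ (act 0 a y) = ρ y := by
    intro a
    have h1 := hx a
    have h2 : ρ (a.φ x) = ρ (a.φ ((y : E0 p n) * v1 F ^ m)) := by
      have h3 : ρ (x - y * v1 F ^ m) = 0 := by rw [map_sub, map_mul, map_pow, hxy, sub_self]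
      have h4 := piH_phi_of_mem hH le_rfl hn1 a h3
      rw [map_sub, map_sub, sub_eq_zero] at h4
      exact h4
    have h5 := w_rel hF hH (h := 1) le_rfl (show 1 < n by omega) a
    simp only [pow_one] at h5
    rw [act_mul, map_mul, h2, map_mul, map_mul, map_pow, map_pow, hxy] at h1
    have h6 : ((a.t ^ k : (E0 p n)ˣ) : E0 p n) = ((a.t : E0 p n) ^ (p - 1)) ^ m := by
      rw [← Units.val_pow_eq_pow_val, ← Units.val_pow_eq_pow_val, ← pow_mul,
        ← zpow_natCast, hk]
      congr 2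
      push_cast
      ring
    rw [h6, map_pow, map_pow] at h1
    rw [act_mul, map_mul, zpow_zero, Units.val_one, map_one, one_mul]
    apply mul_right_cancel₀ hv0
    rw [← h1]
    have h7 : ρ (v1 F) = ρ (a.φ (v1 F)) * ρ a.t ^ (p - 1) := h5.symm
    nth_rewrite 1 [h7]
    rw [mul_pow]
    ring
  obtain ⟨c, hc⟩ : ∃ c : ℤ, (c : GaloisField p n) = red p n y := by
    apply exists_intCast_of_pow_eq (p := p)
    obtain ⟨⟨φ, g⟩, ⟨h1, h2, h3⟩, -⟩ := AC.exists_unique_pair hF
      (frobeniusEquiv (GaloisField p n) p) PowerSeries.X C0.isIso_X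
    have h4 := red_act_zero hF hH hΓ hn ⟨φ, g, h2⟩ _ (hyinv ⟨φ, g, h2⟩)
    have h5 := RingHom.congr_fun h1 (y : E0 p n)
    exact (h5.symm.trans h4)
  refine ⟨c, ?_, hk⟩
  by_cases hx' : ρ ((y : E0 p n) - (c : E0 p n)) = 0
  · rw [map_sub, sub_eq_zero] at hx'
    rw [hxy, hx', map_mul, map_pow]
  · exfalso
    have hinv' : ∀ a : Elt F, ρ (act 0 a ((y : E0 p n) - (c : E0 p n))) =
        ρ ((y : E0 p n) - (c : E0 p n)) := by
      intro a
      have h1 := hyinv a
      rw [act_mul, zpow_zero, Units.val_one, one_mul] at h1 ⊢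
      rw [map_sub, map_sub, h1, map_sub, map_intCast]
    obtain ⟨m', y', hy', hm'⟩ := exists_form hF hH hΓ hn hinv' hx'
    have hp2 := hp.two_le
    have hm0 : m' = 0 := by
      have h1 : (m' : ℤ) * ((p - 1 : ℕ) : ℤ) = 0 := hm'.symm
      have h2 : ((p - 1 : ℕ) : ℤ) ≠ 0 := by
        have : p - 1 ≠ 0 := by omega
        exact_mod_cast this
      exact_mod_cast (mul_eq_zero.1 h1).resolve_right h2
    rw [hm0, pow_zero, mul_one] at hy'
    have h1 := congrArg constantCoeff hy'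
    rw [constantCoeff_piH, constantCoeff_piH, map_sub, map_intCast, hc, sub_self] at h1
    exact (y'.isUnit.map (red p n)).ne_zero h1.symm

end

end Vale.Agent.P261
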