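import Vale.Agent.P261.H399.Main

/-!
# P261: invariants of `E_(2k)/I_h` for `1 ≤ h < n`
-/

namespace Vale.Agent.P261

open MvPowerSeries Vale.Agent.P217

variable {p n : ℕ} [Fact p.Prime] {Γ : FormalGroup (ZMod p)} {F : FormalGroup (E0 p n)}

theorem rhoH_eq_zero_iff {h : ℕ} (hh : 1 ≤ h) (hhn : h ≤ n) (x : E0 p n) :
    piH p n h hh hhn x = 0 ↔ x ∈ heightIdeal p n h := by
  rw [← RingHom.mem_ker, ker_piH]

theorem heightIdeal_le {h h' : ℕ} (hle : h' ≤ h) : heightIdeal p n h' ≤ heightIdeal p n h := by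
  rcases Nat.eq_zero_or_pos h' with rfl | hpos
  · rw [heightIdeal, if_pos rfl]
    exact bot_le
  · rw [heightIdeal, heightIdeal, if_neg (by omega), if_neg (by omega)]
    apply Ideal.span_mono
    rintro x (hx | ⟨i, hi, rfl⟩)
    · exact Or.inl hx
    · exact Or.inr ⟨i, by omega, rfl⟩

theorem act_mem_height (hH : HeightAdapted p n F) {h : ℕ} (hhn : h ≤ n) (k : ℤ) (a : Elt F)
    {x : E0 p n} (hx : x ∈ heightIdeal p n h) : act k a x ∈ heightIdeal p n h := by
  have h1 := isInvariant_heightIdeal_of_adapted hH h hhn a.φ a.g a.iso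
  rw [act_mul]
  apply Ideal.mul_mem_left
  rw [← h1]
  exact Ideal.mem_map_of_mem (a.φ : E0 p n →+* E0 p n) hx

section

variable (hF : IsUniversalDeformation p n Γ F) (hH : HeightAdapted p n F) (hΓ : IsHonda p n Γ)
include hF hH

omit hF hH in
theorem vH_eq (F : FormalGroup (E0 p n)) (h : ℕ) :
    vH F h = PowerSeries.coeff (p ^ h) (multSeries F p) := rfl

theorem vH_inv {h : ℕ} (hh : 1 ≤ h) (hhn : h < n) (a : Elt F) :
    act ((p : ℤ) ^ h - 1) a (vH F h) - vH F h ∈ heightIdeal p n h := by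
  have hp : p.Prime := Fact.out
  have h5 := w_rel hF hH hh hhn a
  rw [← rhoH_eq_zero_iff hh hhn.le, map_sub, act_mul, map_mul, sub_eq_zero]
  have h6 : ((a.t ^ ((p : ℤ) ^ h - 1) : (E0 p n)ˣ) : E0 p n) = (a.t : E0 p n) ^ (p ^ h - 1) := by
    rw [← Units.val_pow_eq_pow_val, ← zpow_natCast, Nat.cast_sub (Nat.one_le_pow _ _ hp.pos),
      Nat.cast_one, Nat.cast_pow]
  rw [h6, map_pow, mul_comm]
  exact h5

include hΓ

theorem rhoH_v {h : ℕ} (hh : 1 ≤ h) (hhn : h < n) : ∃ (e : MvPowerSeries (Fin (n - h)) (GaloisField p n))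
    (i0 : Fin (n - h)), IsUnit e ∧ (i0 : ℕ) = 0 ∧ piH p n h hh hhn.le (vH F h) = e * X i0 := by
  have hn1 : 1 ≤ n := by omega
  have hp : p.Prime := Fact.out
  have hΓ₀ := hΓ.hondaLike hn1 (GaloisField p n) (algebraMap (ZMod p) (GaloisField p n))
  obtain ⟨A, hA⟩ := exists_famFG' hn1 hΓ₀ hF hH h hh hhn
  obtain ⟨e, heu, he⟩ := A.V_one
  refine ⟨e, ⟨0, Nat.sub_pos_of_lt A.h_lt_n⟩, heu, rfl, ?_⟩
  have hp0 : p ^ h ≠ 0 := pow_ne_zero _ hp.ne_zero
  have h1 : piH p n h hh hhn.le (vH F h) = PowerSeries.coeff (p ^ h) (multSeries A.G p) := by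
    rw [hA, ← fbMap_multSeries, PowerSeries.coeff_map, vH_eq]
  rw [h1, A.series, PowerSeries.coeff_subst_X_pow hp0, if_pos (dvd_refl _),
    Nat.div_self (Nat.pos_of_ne_zero hp0), ← he]
  rfl

theorem vH_pow_ne {h : ℕ} (hh : 1 ≤ h) (hhn : h < n) (m : ℕ) : vH F h ^ m ∉ heightIdeal p n h := by
  have : IsDomain (MvPowerSeries (Fin (n - h)) (GaloisField p n)) := NoZeroDivisors.to_isDomain _
  obtain ⟨e, i0, heu, -, hv⟩ := rhoH_v hF hH hΓ hh hhn
  intro hd
  rw [← rhoH_eq_zero_iff hh hhn.le, map_pow, hv] at hd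
  exact pow_ne_zero m (mul_ne_zero heu.ne_zero (prime_X _).ne_zero) hd

theorem exists_formH (hn : 2 ≤ n) {h : ℕ} (hh : 1 ≤ h) (hhn : h < n) {k : ℤ} {x : E0 p n}
    (hx : ∀ a : Elt F, act k a x - x ∈ heightIdeal p n h) (hx0 : x ∉ heightIdeal p n h) :
    ∃ (m : ℕ) (y : (E0 p n)ˣ), piH p n h hh hhn.le x =
      piH p n h hh hhn.le y * piH p n h hh hhn.le (vH F h) ^ m ∧
      k = m * ((p : ℤ) ^ h - 1) ∧
      ∀ a : Elt F, piH p n h hh hhn.le (act 0 a y) = piH p n h hh hhn.le y := by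
  classical
  have hp : p.Prime := Fact.out
  have hn1 : 1 ≤ n := by omega
  have hF1 : F.IsComm := hF.comm
  have : IsDomain (MvPowerSeries (Fin (n - h)) (GaloisField p n)) := NoZeroDivisors.to_isDomain _
  obtain ⟨e, i0, heu, hi0, hρv⟩ := rhoH_v hF hH hΓ hh hhn
  have hρi : ∀ z, z ∈ heightIdeal p n h → piH p n h hh hhn.le z = 0 :=
    fun z hz => (rhoH_eq_zero_iff hh hhn.le z).2 hz
  have hρX : piH p n h hh hhn.le (X (embH n h hh hhn.le i0)) = X i0 :=
    piH_X_emb (p := p) h hh hhn.le i0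
  -- the invariant radical ideal
  set J : Ideal (E0 p n) := (heightIdeal p n h ⊔ Ideal.span {x}).radical with hJ
  have hinv : IsInvariant p n F J := by
    intro φ g hg
    let a : Elt F := ⟨φ, g, hg⟩
    rw [hJ, Ideal.map_radical_of_surjective (f := (φ : E0 p n →+* E0 p n)) φ.surjective
      (by
        intro y hy
        have hy0 : y = 0 := φ.injective (by rw [map_zero]; exact hy)
        rw [hy0]
        exact Ideal.zero_mem _)]
    congr 1
    rw [Ideal.map_sup, isInvariant_heightIdeal_of_adapted hH h hhn.le φ g hg, Ideal.map_span,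
      Set.image_singleton]
    obtain ⟨z, hz⟩ : ∃ z, z = act k a x - x := ⟨_, rfl⟩
    have hzI : z ∈ heightIdeal p n h := hz ▸ hx a
    have h3 : (φ : E0 p n →+* E0 p n) x = (((a.t ^ k)⁻¹ : (E0 p n)ˣ) : E0 p n) * (x + z) := by
      rw [hz, act_mul]
      change a.φ x = _
      rw [add_sub_cancel, ← mul_assoc, Units.inv_mul, one_mul]
    have h4 : x = ((a.t ^ k : (E0 p n)ˣ) : E0 p n) * (φ : E0 p n →+* E0 p n) x - z := by
      rw [h3, ← mul_assoc, Units.mul_inv, one_mul, add_sub_cancel_right]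
    apply le_antisymm
    · refine sup_le le_sup_left ?_
      rw [Ideal.span_le]
      rintro y rfl
      rw [SetLike.mem_coe, h3]
      exact Ideal.mul_mem_left _ _ (Ideal.add_mem _
        ((le_sup_right : Ideal.span {x} ≤ _) (Ideal.subset_span rfl))
        ((le_sup_left : heightIdeal p n h ≤ _) hzI))
    · refine sup_le le_sup_left ?_
      rw [Ideal.span_le]
      rintro y rfl
      rw [SetLike.mem_coe]
      nth_rewrite 2 [h4]
      exact Ideal.sub_mem _ (Ideal.mul_mem_left _ _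
        ((le_sup_right : Ideal.span {_} ≤ _) (Ideal.subset_span rfl)))
        ((le_sup_left : heightIdeal p n h ≤ _) hzI)
  have hxJ : x ∈ J := Ideal.le_radical ((le_sup_right : Ideal.span {x} ≤ _) (Ideal.subset_span rfl))
  have hdvd : ∃ N, piH p n h hh hhn.le x ∣ X i0 ^ N := by
    rcases (chai hn1 Γ hΓ F hF hH J).2.1 ⟨Ideal.radical_isRadical _, hinv⟩ with htop | ⟨h', hh', hJh⟩
    · rw [hJ, Ideal.radical_eq_top, Ideal.eq_top_iff_one] at htop
      obtain ⟨b, hb, c, hc, hbc⟩ := Submodule.mem_sup.1 htop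
      obtain ⟨d, rfl⟩ := Ideal.mem_span_singleton'.1 hc
      refine ⟨0, piH p n h hh hhn.le d, ?_⟩
      have := congrArg (piH p n h hh hhn.le) hbc
      rw [map_add, map_mul, hρi b hb, zero_add, map_one] at this
      rw [pow_zero, ← this, mul_comm]
    · have hh2 : h < h' := by
        by_contra hlt
        apply hx0
        rw [hJh] at hxJ
        exact heightIdeal_le (not_lt.1 hlt) hxJ
      have hXJ : (X (embH n h hh hhn.le i0) : E0 p n) ∈ J := by
        rw [hJh, heightIdeal, if_neg (by omega)]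
        refine Ideal.subset_span (Or.inr ⟨embH n h hh hhn.le i0, ?_, rfl⟩)
        rw [val_embH]
        omega
      obtain ⟨N, hN⟩ := hXJ
      obtain ⟨b, hb, c, hc, hbc⟩ := Submodule.mem_sup.1 hN
      obtain ⟨d, rfl⟩ := Ideal.mem_span_singleton'.1 hc
      refine ⟨N, piH p n h hh hhn.le d, ?_⟩
      have := congrArg (piH p n h hh hhn.le) hbc
      rw [map_add, map_mul, hρi b hb, zero_add, map_pow, hρX] at this
      rw [← this, mul_comm]
  obtain ⟨N, hN⟩ := hdvd
  obtain ⟨m, -, hm⟩ := (dvd_prime_pow (prime_X i0) N).1 hN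
  set ρ := piH p n h hh hhn.le with hρ
  have hρv0 : ρ (vH F h) ≠ 0 := by
    rw [hρv]
    exact mul_ne_zero heu.ne_zero (prime_X i0).ne_zero
  have hass : Associated (ρ (vH F h) ^ m) (ρ x) := by
    refine Associated.trans ?_ hm.symm
    rw [hρv]
    exact (associated_unit_mul_left _ _ heu).pow_pow
  obtain ⟨u, hu⟩ := hass
  obtain ⟨y, hy⟩ := piH_surjective (p := p) (n := n) h hh hhn.le
    (u : MvPowerSeries (Fin (n - h)) (GaloisField p n))
  have hyu : IsUnit y := by
    apply C0.isUnit_of_red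
    rw [← constantCoeff_piH h hh hhn.le, hy]
    exact u.isUnit.map constantCoeff
  obtain ⟨y, rfl⟩ := hyu
  have hxy : ρ x = ρ y * ρ (vH F h) ^ m := by
    rw [← hu, mul_comm]
    congr 1
    exact hy.symm
  have hfin : ∀ a : Elt F, ρ (act (k - m * ((p : ℤ) ^ h - 1)) a y) = ρ y := by
    intro a
    have h1 : ρ (act k a x) = ρ x := by
      rw [← sub_eq_zero, ← map_sub]
      exact hρi _ (hx a)
    have h2 : ρ (a.φ x) = ρ (a.φ ((y : E0 p n) * vH F h ^ m)) := by
      have h3 : ρ (x - y * vH F h ^ m) = 0 := by rw [map_sub, map_mul, map_pow, hxy, sub_self]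
      have h4 := piH_phi_of_mem hH hh hhn.le a h3
      rw [map_sub, map_sub, sub_eq_zero] at h4
      exact h4
    have h5 := w_rel hF hH hh hhn a
    rw [act_mul, map_mul, h2, map_mul, map_mul, map_pow, map_pow, hxy] at h1
    have h6 : ((a.t ^ k : (E0 p n)ˣ) : E0 p n) =
        ((a.t ^ (k - m * ((p : ℤ) ^ h - 1)) : (E0 p n)ˣ) : E0 p n) *
          ((a.t : E0 p n) ^ (p ^ h - 1)) ^ m := by
      rw [← Units.val_pow_eq_pow_val, ← Units.val_pow_eq_pow_val, ← Units.val_mul, ← pow_mul,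
        ← zpow_natCast, ← zpow_add]
      congr 2
      rw [Nat.cast_mul, Nat.cast_sub (Nat.one_le_pow _ _ hp.pos), Nat.cast_pow, Nat.cast_one]
      ring
    rw [h6, map_mul, map_pow, map_pow] at h1
    rw [act_mul, map_mul]
    apply mul_right_cancel₀ (pow_ne_zero m hρv0)
    rw [← h1]
    have h7 : ρ (vH F h) = ρ (a.φ (vH F h)) * ρ a.t ^ (p ^ h - 1) := h5.symm
    nth_rewrite 1 [h7]
    rw [mul_pow]
    ring
  have hk : k = m * ((p : ℤ) ^ h - 1) := by
    by_contra hk
    have hk' : k - m * ((p : ℤ) ^ h - 1) ≠ 0 := sub_ne_zero.2 hk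
    refine no_unit hF hH hΓ (h := n - 1) (by omega) (by omega) hk' y ?_
    intro a
    have h1 := hfin a
    rw [← sub_eq_zero, ← map_sub, rhoH_eq_zero_iff] at h1
    rw [← sub_eq_zero, ← map_sub, rhoH_eq_zero_iff]
    exact heightIdeal_le (by omega) h1
  refine ⟨m, y, hxy, hk, fun a => ?_⟩
  have h1 := hfin a
  rwa [hk, sub_self] at h1

/-- the invariants of `E_(2k)/I_h`. -/
theorem inv_formH (hn : 2 ≤ n) {h : ℕ} (hh : 1 ≤ h) (hhn : h < n) {k : ℤ} {x : E0 p n}
    (hx : ∀ a : Elt F, act k a x - x ∈ heightIdeal p n h) (hx0 : x ∉ heightIdeal p n h) :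
    ∃ (m : ℕ) (c : ℤ), k = m * ((p : ℤ) ^ h - 1) ∧ x - c * vH F h ^ m ∈ heightIdeal p n h := by
  have hp : p.Prime := Fact.out
  have hn1 : 1 ≤ n := by omega
  have : IsDomain (MvPowerSeries (Fin (n - h)) (GaloisField p n)) := NoZeroDivisors.to_isDomain _
  have hF1 : F.IsComm := hF.comm
  obtain ⟨m, y, hxy, hk, hyinv⟩ := exists_formH hF hH hΓ hn hh hhn hx hx0
  obtain ⟨c, hc⟩ : ∃ c : ℤ, (c : GaloisField p n) = red p n y := by
    apply exists_intCast_of_pow_eq (p := p)
    obtain ⟨⟨φ, g⟩, ⟨h1, h2, h3⟩, -⟩ := AC.exists_unique_pair hF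
      (frobeniusEquiv (GaloisField p n) p) PowerSeries.X C0.isIso_X
    have h4 : red p n (φ (y : E0 p n)) = red p n y := by
      have h1 := congrArg constantCoeff (hyinv ⟨φ, g, h2⟩)
      rw [constantCoeff_piH, constantCoeff_piH, act_mul, zpow_zero, Units.val_one, one_mul] at h1
      exact h1
    have h5 := RingHom.congr_fun h1 (y : E0 p n)
    exact (h5.symm.trans h4)
  refine ⟨m, c, hk, ?_⟩
  rw [← rhoH_eq_zero_iff hh hhn.le]
  by_cases hx' : (y : E0 p n) - (c : E0 p n) ∈ heightIdeal p n h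
  · rw [← rhoH_eq_zero_iff hh hhn.le, map_sub, sub_eq_zero] at hx'
    rw [map_sub, hxy, hx', map_mul, map_pow, sub_self]
  · exfalso
    have hinv' : ∀ a : Elt F, act 0 a ((y : E0 p n) - (c : E0 p n)) -
        ((y : E0 p n) - (c : E0 p n)) ∈ heightIdeal p n h := by
      intro a
      have h1 := hyinv a
      have h2 : act 0 a ((y : E0 p n) - (c : E0 p n)) - ((y : E0 p n) - (c : E0 p n)) =
          act 0 a (y : E0 p n) - y := by
        rw [act_mul, act_mul, zpow_zero, Units.val_one, one_mul, one_mul, map_sub, map_intCast]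
        ring
      rw [h2, ← rhoH_eq_zero_iff hh hhn.le, map_sub, h1, sub_self]
    obtain ⟨m', y', hy', hm', -⟩ := exists_formH hF hH hΓ hn hh hhn hinv' hx'
    have hm0 : m' = 0 := by
      have h1 : (m' : ℤ) * ((p : ℤ) ^ h - 1) = 0 := hm'.symm
      have h2 : (p : ℤ) ^ h - 1 ≠ 0 := by
        have : 1 < p ^ h := Nat.one_lt_pow (by omega) hp.one_lt
        have : (1 : ℤ) < (p : ℤ) ^ h := by exact_mod_cast this
        omega
      exact_mod_cast (mul_eq_zero.1 h1).resolve_right h2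
    rw [hm0, pow_zero, mul_one] at hy'
    have h1 := congrArg constantCoeff hy'
    rw [constantCoeff_piH, constantCoeff_piH, map_sub, map_intCast, hc, sub_self] at h1
    exact (y'.isUnit.map (red p n)).ne_zero h1.symm

end

end Vale.Agent.P261
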