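import Vale.Agent.P261.H399.InvH
import Vale.Agent.P217.H260.Main

/-!
# P261: ratios invariant modulo `I_h`
-/

namespace Vale.Agent.P261

open MvPowerSeries Vale.Agent.P217

variable {p n : ℕ} [Fact p.Prime] {Γ : FormalGroup (ZMod p)} {F : FormalGroup (E0 p n)}

section

variable (hF : IsUniversalDeformation p n Γ F) (hH : HeightAdapted p n F) (hΓ : IsHonda p n Γ)

include hH in
theorem phi_mem_iff {h : ℕ} (hhn : h ≤ n) (g : Elt F) (x : E0 p n) :
    g.φ x ∈ heightIdeal p n h ↔ x ∈ heightIdeal p n h := by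
  have h1 := isInvariant_heightIdeal_of_adapted hH h hhn g.φ g.g g.iso
  constructor
  · intro hx
    rw [← h1] at hx
    obtain ⟨y, hy, hyx⟩ := (Ideal.mem_map_of_equiv g.φ _).1 hx
    rwa [← g.φ.injective hyx]
  · intro hx
    rw [← h1]
    exact Ideal.mem_map_of_mem (g.φ : E0 p n →+* E0 p n) hx

include hF hH hΓ

/-- a weight zero invariant modulo `I_h` is an integer. -/
theorem inv_zero (hn : 2 ≤ n) {h : ℕ} (hh : 1 ≤ h) (hhn : h < n) {s : E0 p n}
    (hs : ∀ g : Elt F, g.φ s - s ∈ heightIdeal p n h) : ∃ c : ℤ, s - c ∈ heightIdeal p n h := by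
  have hp : p.Prime := Fact.out
  by_cases h0 : s ∈ heightIdeal p n h
  · exact ⟨0, by simpa using h0⟩
  · obtain ⟨m, c, hm, hc⟩ := inv_formH hF hH hΓ hn hh hhn (k := 0) (x := s) (fun a => by
      have h1 := hs a
      rw [act_mul, zpow_zero, Units.val_one, one_mul]
      exact h1) h0
    have hm0 : m = 0 := by
      have h2 : (p : ℤ) ^ h - 1 ≠ 0 := by
        have : 1 < p ^ h := Nat.one_lt_pow (by omega) hp.one_lt
        have : (1 : ℤ) < (p : ℤ) ^ h := by exact_mod_cast this
        omega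
      exact_mod_cast (mul_eq_zero.1 hm.symm).resolve_right h2
    rw [hm0, pow_zero, mul_one] at hc
    exact ⟨c, hc⟩

theorem key_lt (hn : 2 ≤ n) {h : ℕ} (hh : 1 ≤ h) (hhn : h < n) {a b : E0 p n}
    (ha : a ∉ heightIdeal p n h)
    (hab : ∀ g : Elt F, g.φ a * b - a * g.φ b ∈ heightIdeal p n h) :
    ∃ c : ℤ, b - c * a ∈ heightIdeal p n h := by
  have hp : p.Prime := Fact.out
  have hn1 : 1 ≤ n := by omega
  have hP : (heightIdeal p n h).IsPrime := isPrime_heightIdeal hn1 h hhn.le
  set I := heightIdeal p n h with hI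
  have hφI : ∀ (g : Elt F) x, g.φ x ∈ I ↔ x ∈ I := fun g x => phi_mem_iff hH hhn.le g x
  have hcan : ∀ {x y : E0 p n}, x ∉ I → x * y ∈ I → y ∈ I := fun {x y} hx hxy =>
    (hP.mem_or_mem hxy).resolve_left hx
  -- the colon ideal
  let D : Ideal (E0 p n) :=
    { carrier := {r | ∃ s : E0 p n, r * b - s * a ∈ I}
      add_mem' := by
        rintro r r' ⟨s, hs⟩ ⟨s', hs'⟩
        refine ⟨s + s', ?_⟩
        have := I.add_mem hs hs'
        have e : (r + r') * b - (s + s') * a = (r * b - s * a) + (r' * b - s' * a) := by ring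
        rwa [e]
      zero_mem' := ⟨0, by simp⟩
      smul_mem' := by
        rintro c r ⟨s, hs⟩
        refine ⟨c * s, ?_⟩
        have := I.mul_mem_left c hs
        have e : c • r * b - c * s * a = c * (r * b - s * a) := by rw [smul_eq_mul]; ring
        rwa [e] }
  have hD : ∀ r, r ∈ D ↔ ∃ s : E0 p n, r * b - s * a ∈ I := fun r => Iff.rfl
  have hDφ : ∀ (g : Elt F) r, g.φ r ∈ D ↔ r ∈ D := by
    intro g r
    rw [hD, hD]
    constructor
    · rintro ⟨s, hs⟩
      refine ⟨g.φ.symm s, ?_⟩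
      rw [← hφI g, map_sub, map_mul, map_mul, RingEquiv.apply_symm_apply]
      apply hcan ha
      have e : a * (g.φ r * g.φ b - s * g.φ a) =
          g.φ a * (g.φ r * b - s * a) - g.φ r * (g.φ a * b - a * g.φ b) := by ring
      rw [e]
      exact I.sub_mem (I.mul_mem_left _ hs) (I.mul_mem_left _ (hab g))
    · rintro ⟨s, hs⟩
      refine ⟨g.φ s, ?_⟩
      have ha' : g.φ a ∉ I := fun h => ha ((hφI g a).1 h)
      apply hcan ha'
      have h1 := (hφI g _).2 hs
      rw [map_sub, map_mul, map_mul] at h1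
      have e : g.φ a * (g.φ r * b - g.φ s * a) =
          a * (g.φ r * g.φ b - g.φ s * g.φ a) + g.φ r * (g.φ a * b - a * g.φ b) := by ring
      rw [e]
      exact I.add_mem (I.mul_mem_left _ h1) (I.mul_mem_left _ (hab g))
  have hinv : IsInvariant p n F D.radical := by
    intro φ g hg
    rw [Ideal.map_radical_of_surjective (f := (φ : E0 p n →+* E0 p n)) φ.surjective
      (by
        intro y hy
        have hy0 : y = 0 := φ.injective (by rw [map_zero]; exact hy)
        rw [hy0]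
        exact Ideal.zero_mem _)]
    congr 1
    ext y
    constructor
    · intro hy
      obtain ⟨x, hx, rfl⟩ := (Ideal.mem_map_of_equiv φ _).1 hy
      exact (hDφ ⟨φ, g, hg⟩ x).2 hx
    · intro hy
      refine (Ideal.mem_map_of_equiv φ _).2 ⟨φ.symm y, ?_, φ.apply_symm_apply y⟩
      rw [← hDφ ⟨φ, g, hg⟩]
      change φ (φ.symm y) ∈ D
      rwa [φ.apply_symm_apply]
  have haD : a ∈ D := ⟨b, by rw [mul_comm, sub_self]; exact I.zero_mem⟩
  rcases (chai hn1 Γ hΓ F hF hH D.radical).2.1 ⟨Ideal.radical_isRadical _, hinv⟩ with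
    htop | ⟨h', hh', hJh⟩
  · rw [Ideal.radical_eq_top, Ideal.eq_top_iff_one, hD] at htop
    obtain ⟨s, hs⟩ := htop
    rw [one_mul] at hs
    obtain ⟨c, hc⟩ := inv_zero hF hH hΓ hn hh hhn (s := s) (fun g => by
      have ha' : g.φ a ∉ I := fun h => ha ((hφI g a).1 h)
      apply hcan ha
      apply hcan ha'
      have h1 := (hφI g _).2 hs
      rw [map_sub, map_mul] at h1
      have e : g.φ a * (a * (g.φ s - s)) = g.φ a * (b - s * a) - a * (g.φ b - g.φ s * g.φ a) -
          (g.φ a * b - a * g.φ b) := by ring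
      rw [e]
      exact I.sub_mem (I.sub_mem (I.mul_mem_left _ hs) (I.mul_mem_left _ h1)) (hab g))
    refine ⟨c, ?_⟩
    have e : b - c * a = (b - s * a) + (s - c) * a := by ring
    rw [e]
    exact I.add_mem hs (I.mul_mem_right _ hc)
  · have hlt : h < h' := by
      by_contra hle
      apply ha
      have h1 : a ∈ D.radical := Ideal.le_radical haD
      rw [hJh] at h1
      exact heightIdeal_le (not_lt.1 hle) h1
    have hv : vH F h ∈ D.radical := by
      rw [hJh]
      refine heightIdeal_le (h' := h + 1) (by omega) ?_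
      rw [hH (h + 1) (by omega) (by omega)]
      exact Ideal.subset_span (Or.inr ⟨p ^ h, Nat.pow_lt_pow_right hp.one_lt (by omega), rfl⟩)
    obtain ⟨N, hN⟩ := hv
    rw [hD] at hN
    obtain ⟨r, hr⟩ := hN
    have hvN : vH F h ^ N ∉ I := vH_pow_ne hF hH hΓ hh hhn N
    have hinvr : ∀ g : Elt F, act (N * ((p : ℤ) ^ h - 1)) g r - r ∈ I := by
      intro g
      have ha' : g.φ a ∉ I := fun h => ha ((hφI g a).1 h)
      apply hcan ha
      apply hcan ha'
      -- `t^(N P) φ(v)^N ≡ v^N`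
      have h1 : act (N * ((p : ℤ) ^ h - 1)) g (vH F h ^ N) - vH F h ^ N ∈ I := by
        have h2 : act (N * ((p : ℤ) ^ h - 1)) g (vH F h ^ N) =
            (act ((p : ℤ) ^ h - 1) g (vH F h)) ^ N := by
          rw [act_mul, act_mul, map_pow, mul_pow]
          congr 1
          rw [← Units.val_pow_eq_pow_val, ← zpow_natCast, ← zpow_mul, mul_comm (N : ℤ)]
        rw [h2]
        exact I.mem_of_dvd (sub_dvd_pow_sub_pow _ _ N) (vH_inv hF hH hh hhn g)
      have h3 := (hφI g _).2 hr
      rw [map_sub, map_mul, map_mul] at h3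
      rw [act_mul] at h1 ⊢
      generalize ((g.t ^ (N * ((p : ℤ) ^ h - 1)) : (E0 p n)ˣ) : E0 p n) = U at h1 ⊢
      have e : g.φ a * (a * (U * g.φ r - r)) =
          -(a * (U * (g.φ (vH F h ^ N) * g.φ b - g.φ r * g.φ a))) +
            (U * g.φ (vH F h ^ N) - vH F h ^ N) * (a * g.φ b) -
            vH F h ^ N * (g.φ a * b - a * g.φ b) + g.φ a * (vH F h ^ N * b - r * a) := by ring
      rw [e]
      refine I.add_mem (I.sub_mem (I.add_mem (I.neg_mem (I.mul_mem_left _ (I.mul_mem_left _ h3)))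
        (I.mul_mem_right _ h1)) (I.mul_mem_left _ (hab g))) (I.mul_mem_left _ hr)
    by_cases hr0 : r ∈ I
    · refine ⟨0, ?_⟩
      rw [Int.cast_zero, zero_mul, sub_zero]
      apply hcan hvN
      have e : vH F h ^ N * b = (vH F h ^ N * b - r * a) + r * a := by ring
      rw [e]
      exact I.add_mem hr (I.mul_mem_right _ hr0)
    · obtain ⟨m, c, hm, hc⟩ := inv_formH hF hH hΓ hn hh hhn hinvr hr0
      have hmN : m = N := by
        have h2 : (p : ℤ) ^ h - 1 ≠ 0 := by
          have : 1 < p ^ h := Nat.one_lt_pow (by omega) hp.one_lt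
          have : (1 : ℤ) < (p : ℤ) ^ h := by exact_mod_cast this
          omega
        exact_mod_cast (mul_right_cancel₀ h2 hm).symm
      rw [hmN] at hc
      refine ⟨c, ?_⟩
      apply hcan hvN
      have e : vH F h ^ N * (b - c * a) = (vH F h ^ N * b - r * a) + (r - c * vH F h ^ N) * a := by
        ring
      rw [e]
      exact I.add_mem hr (I.mul_mem_right _ hc)

omit hF hH hΓ in
theorem mem_height_n_iff (hn1 : 1 ≤ n) (x : E0 p n) : x ∈ heightIdeal p n n ↔ red p n x = 0 := by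
  rw [← rhoH_eq_zero_iff hn1 le_rfl, ← constantCoeff_piH n hn1 le_rfl]
  have : IsEmpty (Fin (n - n)) := by rw [Nat.sub_self]; infer_instance
  constructor
  · intro h
    rw [h, map_zero]
  · intro h
    ext d
    have hd : d = 0 := Subsingleton.elim _ _
    rw [hd, coeff_zero_eq_constantCoeff_apply, h, map_zero]

theorem key_eq (hn1 : 1 ≤ n) {a b : E0 p n} (ha : a ∉ heightIdeal p n n)
    (hab : ∀ g : Elt F, g.φ a * b - a * g.φ b ∈ heightIdeal p n n) :
    ∃ c : ℤ, b - c * a ∈ heightIdeal p n n := by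
  have hF1 : F.IsComm := hF.comm
  have hmem := mem_height_n_iff (p := p) hn1
  obtain ⟨⟨φ, g⟩, ⟨h1, h2, h3⟩, -⟩ := AC.exists_unique_pair hF
    (frobeniusEquiv (GaloisField p n) p) PowerSeries.X C0.isIso_X
  have hfr : ∀ x, red p n (φ x) = (red p n x) ^ p := fun x => RingHom.congr_fun h1 x
  have h4 := hab ⟨φ, g, h2⟩
  rw [hmem] at h4 ha
  have h5 : (red p n a) ^ p * red p n b - red p n a * (red p n b) ^ p = 0 := by
    rw [← hfr, ← hfr, ← map_mul, ← map_mul, ← map_sub]
    exact h4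
  obtain ⟨c, hc⟩ : ∃ c : ℤ, (c : GaloisField p n) = red p n b / red p n a := by
    apply exists_intCast_of_pow_eq (p := p)
    rw [div_pow, div_eq_div_iff (pow_ne_zero _ ha) ha]
    linear_combination -h5
  refine ⟨c, ?_⟩
  rw [hmem, map_sub, map_mul, map_intCast, hc, div_mul_cancel₀ _ ha, sub_self]

theorem key_all (hn : 2 ≤ n) {h : ℕ} (hh : 1 ≤ h) (hhn : h ≤ n) {a b : E0 p n}
    (ha : a ∉ heightIdeal p n h)
    (hab : ∀ g : Elt F, g.φ a * b - a * g.φ b ∈ heightIdeal p n h) :
    ∃ c : ℤ, b - c * a ∈ heightIdeal p n h := by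
  rcases Nat.lt_or_ge h n with hlt | hge
  · exact key_lt hF hH hΓ hn hh hlt ha hab
  · obtain rfl : h = n := le_antisymm hhn hge
    exact key_eq hF hH hΓ hh ha hab

end

end Vale.Agent.P261
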