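import Vale.Agent.P261.H399.Zp

/-!
# P261: finiteness of `H^1(G_n; M)` when `1` is not a weight of the centre
-/

namespace Vale.Agent.P261

open Vale.Agent.P217

universe u

variable {p n : ℕ} [Fact p.Prime] {Γ : FormalGroup (ZMod p)} {F : FormalGroup (E0 p n)}

theorem commute_aeval {A : Type*} [Ring A] {τ x : A} (h : Commute τ x) (Q : Polynomial ℤ) :
    Commute (Polynomial.aeval τ Q) x := by
  induction Q using Polynomial.induction_on' with
  | add P Q hP hQ => rw [map_add]; exact hP.add_left hQ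
  | monomial k a =>
    rw [Polynomial.aeval_monomial]
    refine Commute.mul_left ?_ (h.pow_left k)
    exact Algebra.commutes a x

section

variable (hF : IsUniversalDeformation p n Γ F) (hH : HeightAdapted p n F) (hΓ : IsHonda p n Γ)
include hF hH hΓ

variable {M : Type u} [AddCommGroup M] [Module (E0 p n) M] [Module.Finite (E0 p n) M]
  (T : Elt F → M ≃+ M) (hT : ∀ a r m, T a (r • m) = a.φ r • T a m)
include hT

theorem h1_finite (hn : 2 ≤ n) (htf : ∀ m : M, (p : E0 p n) • m = 0 → m = 0)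
    (hmul : ∀ a b ab : Elt F, IsMul a b ab → ∀ m, T ab m = T a (T b m))
    (b : ℕ) (z : Elt F) (hzφ : z.φ = RingEquiv.refl _) (hzg : z.g = multSeries F b)
    (P : Polynomial ℤ) (hP1 : P.eval 1 ≠ 0)
    (hP : Polynomial.aeval (A := AddMonoid.End M) (T z).toAddMonoidHom P = 0) :
    ∃ C : Set (Elt F → M), C.Finite ∧ (∀ c ∈ C, IsCrossedTo T c) ∧
      ∀ c : Elt F → M, IsCrossedTo T c → ∃ c' ∈ C, IsPrincipalTo T (fun a => c a - c' a) := by
  have hF1 : F.IsComm := hF.comm
  have hb : IsUnit (b : E0 p n) := by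
    have h1 := z.iso.2
    rw [hzg, C0.coeff_one_multSeries] at h1
    exact h1
  have hz : z = cen b hb := by
    obtain ⟨φ, g, iso⟩ := z
    simp only at hzφ hzg
    subst hzφ
    subst hzg
    rfl
  have hcomm : ∀ a : Elt F, ∃ ab : Elt F, IsMul z a ab ∧ IsMul a z ab := by
    rw [hz]
    exact cen_comm b hb
  set τ : AddMonoid.End M := (T z).toAddMonoidHom with hτ
  have hτa : ∀ m, τ m = T z m := fun m => rfl
  obtain ⟨Q, hQ⟩ := Polynomial.X_sub_C_dvd_sub_C_eval (a := (1 : ℤ)) (p := P)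
  have hQτ : Polynomial.aeval τ Q * (τ - 1) = - ((P.eval 1 : ℤ) : AddMonoid.End M) := by
    have h1 := congrArg (Polynomial.aeval τ) hQ
    rw [mul_comm, map_sub, hP, map_mul, map_sub, Polynomial.aeval_X, Polynomial.aeval_C,
      Polynomial.aeval_C, zero_sub, eq_intCast, eq_intCast, Int.cast_one] at h1
    exact h1.symm
  -- an integer kills `H^1`
  have hkill : ∀ c : Elt F → M, IsCrossedTo T c → ∃ y, ∀ a, (P.eval 1 : ℤ) • c a = T a y - y := by
    intro c hc
    refine ⟨-(Polynomial.aeval τ Q (c z)), fun a => ?_⟩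
    obtain ⟨ab, h1, h2⟩ := hcomm a
    have h3 := hc _ _ _ h1
    have h4 := hc _ _ _ h2
    have h5 : (τ - 1) (c a) = T a (c z) - c z := by
      change τ (c a) - c a = _
      rw [hτa]
      rw [h3] at h4
      have h6 : T z (c a) - c a = T a (c z) - c z := by
        have h7 : T z (c a) = c a + T a (c z) - c z := by rw [← h4]; abel
        rw [h7]; abel
      exact h6
    have h8 : Commute τ (show AddMonoid.End M from (T a).toAddMonoidHom) := by
      ext m
      change T z (T a m) = T a (T z m)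
      rw [← hmul _ _ _ h1, ← hmul _ _ _ h2]
    have h9 : ∀ m, Polynomial.aeval τ Q (T a m) = T a (Polynomial.aeval τ Q m) := by
      intro m
      exact DFunLike.congr_fun (commute_aeval h8 Q).eq m
    have h10 := DFunLike.congr_fun hQτ (c a)
    change Polynomial.aeval τ Q ((τ - 1) (c a)) = -(((P.eval 1 : ℤ) : AddMonoid.End M) (c a)) at h10
    rw [h5, map_sub, h9] at h10
    have h11 : ((P.eval 1 : ℤ) : AddMonoid.End M) (c a) = (P.eval 1 : ℤ) • c a := by
      rw [AddMonoid.End.intCast_apply]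
    rw [h11] at h10
    rw [map_neg, sub_neg_eq_add, ← neg_eq_iff_eq_neg.2 h10]
    abel
  obtain ⟨s, r, hr, hD⟩ := int_decomp (p := p) hP1
  obtain ⟨u, hu⟩ := unit_of_not_dvd (n := n) hr
  obtain ⟨C, hCfin, hC1, hC2⟩ := h1_tors hF hH hΓ T hT hn htf s
  refine ⟨C, hCfin, fun c hc => (hC1 c hc).1, fun c hc => hC2 c hc ?_⟩
  obtain ⟨y, hy⟩ := hkill c hc
  refine ⟨((u⁻¹ : (E0 p n)ˣ) : E0 p n) • y, fun a => ?_⟩
  have hfix : a.φ ((u⁻¹ : (E0 p n)ˣ) : E0 p n) = ((u⁻¹ : (E0 p n)ˣ) : E0 p n) := by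
    have h1 : a.φ (u : E0 p n) = u := by rw [hu, map_intCast]
    have h2 : a.φ (u : E0 p n) * a.φ ((u⁻¹ : (E0 p n)ˣ) : E0 p n) = 1 := by
      rw [← map_mul, Units.mul_inv, map_one]
    rw [h1] at h2
    calc a.φ ((u⁻¹ : (E0 p n)ˣ) : E0 p n)
        = ((u⁻¹ : (E0 p n)ˣ) : E0 p n) * ((u : E0 p n) * a.φ ((u⁻¹ : (E0 p n)ˣ) : E0 p n)) := by
          rw [← mul_assoc, Units.inv_mul, one_mul]
      _ = ((u⁻¹ : (E0 p n)ˣ) : E0 p n) := by rw [h2, mul_one]
  rw [hT, hfix, ← smul_sub, ← hy a, hD, ← Int.cast_smul_eq_zsmul (E0 p n), ← mul_smul]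
  congr 1
  push_cast
  rw [← hu]
  calc (p : E0 p n) ^ s = ((u⁻¹ : (E0 p n)ˣ) : E0 p n) * (u : E0 p n) * (p : E0 p n) ^ s := by
        rw [Units.inv_mul, one_mul]
    _ = _ := by ring

end

end Vale.Agent.P261
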