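import Mathlib.NumberTheory.Multiplicity
import Vale.Agent.P261.H399.H1

/-!
# P261: the first cohomology of `E_(2k)`: the final form
-/

namespace Vale.Agent.P261

open MvPowerSeries Vale.Agent.P217

variable {p n : ℕ} [Fact p.Prime] {Γ : FormalGroup (ZMod p)} {F : FormalGroup (E0 p n)}

theorem IsMul.t_eq {a b ab : Elt F} (h : IsMul a b ab) :
    ab.t = a.t * Units.map (a.φ : E0 p n →* E0 p n) b.t := by
  apply Units.ext
  rw [Units.val_mul, Units.coe_map, Elt.coe_t, Elt.coe_t, h.2, C0.coeff_one_subst a.iso.1.1,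
    PowerSeries.coeff_map, ← Elt.coe_t b]
  rfl

theorem IsMul.act_eq {a b ab : Elt F} (h : IsMul a b ab) (k : ℤ) (x : E0 p n) :
    act k ab x = act k a (act k b x) := by
  rw [act_mul, act_mul, act_mul, h.1, h.t_eq, mul_zpow, Units.val_mul, map_mul, ← map_zpow,
    Units.coe_map, mul_assoc]
  rfl

/-- division of a coboundary. -/
theorem exists_crossed {k : ℤ} (e : ℕ) {x : E0 p n}
    (hx : ∀ a : Elt F, (p : E0 p n) ^ e ∣ act k a x - x) :
    ∃ c : Elt F → E0 p n, IsCrossed k c ∧ ∀ a, (p : E0 p n) ^ e * c a = act k a x - x := by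
  choose c hc using hx
  refine ⟨c, ?_, fun a => (hc a).symm⟩
  intro a b ab hab
  apply mul_left_cancel₀ (pow_ne_zero e (p_ne_zero (p := p) (n := n)))
  have h1 : act k a ((p : E0 p n) ^ e * c b) = (p : E0 p n) ^ e * act k a (c b) := by
    apply act_fix
    rw [map_pow, map_natCast]
  have h2 : act k b x = x + (p : E0 p n) ^ e * c b := by rw [← hc b]; ring
  rw [mul_add, ← h1, ← hc ab, ← hc a, hab.act_eq, h2, act_add]
  ring

/-- the central elements detect nonzero elements. -/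
theorem cen_dvd [F.IsComm] (hn1 : 1 ≤ n) {k : ℤ} (b : ℕ) (hb : IsUnit (b : E0 p n)) (e : ℕ)
    {x : E0 p n} (hx0 : ¬ (p : E0 p n) ∣ x) (hx : ∀ a : Elt F, (p : E0 p n) ^ e ∣ act k a x - x) :
    (p : ℤ) ^ e ∣ (b : ℤ) ^ k.natAbs - 1 := by
  have h1 := hx (cen b hb)
  rw [cen_act] at h1
  have h2 : (p : E0 p n) ^ e ∣ ((b : E0 p n) ^ k.natAbs - 1) * x := by
    rcases le_total 0 k with hk | hk
    · rw [cen_zpow_pos _ b (cen_t b hb) hk] at h1
      rw [sub_mul, one_mul]
      exact h1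
    · have h6 := cen_zpow_neg _ b (cen_t (F := F) b hb) hk
      have h7 := h1.mul_left (-((b : E0 p n) ^ k.natAbs))
      have h8 : -((b : E0 p n) ^ k.natAbs) * ((((cen (F := F) b hb).t ^ k : (E0 p n)ˣ) : E0 p n) * x - x) =
          ((b : E0 p n) ^ k.natAbs - 1) * x := by
        linear_combination (-x) * h6
      rwa [h8] at h7
  have h3 := (p_prime (p := p) hn1).pow_dvd_of_dvd_mul_right e hx0 h2
  apply dvd_int hn1
  push_cast
  exact h3

theorem one_add_p_unit : IsUnit (((p + 1 : ℕ) : E0 p n)) := by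
  have hp : p.Prime := Fact.out
  have h := unit_of_not_dvd (p := p) (n := n) (r := ((p + 1 : ℕ) : ℤ)) (by
    rw [Int.natCast_dvd_natCast, Nat.dvd_add_right (dvd_refl p)]
    exact fun hd => hp.one_lt.ne' (Nat.dvd_one.1 hd))
  rwa [Int.cast_natCast] at h

theorem pow_sub_one_ne {k : ℤ} (hk : k ≠ 0) : ((p + 1 : ℕ) : ℤ) ^ k.natAbs - 1 ≠ 0 := by
  have hp : p.Prime := Fact.out
  have h1 : (1 : ℤ) < ((p + 1 : ℕ) : ℤ) ^ k.natAbs := by
    apply one_lt_pow₀
    · have := hp.pos
      push_cast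
      omega
    · omega
  omega

/-- some power of `p` kills a crossed homomorphism of nonzero weight. -/
theorem exists_kill [F.IsComm] {k : ℤ} (hk : k ≠ 0) {c : Elt F → E0 p n}
    (hc : IsCrossed k c) : ∃ N : ℕ, IsPrincipal k (fun a => (p : E0 p n) ^ N * c a) := by
  have h1 := cen_kill hc (p + 1) one_add_p_unit
  obtain ⟨s, r, hr, hs⟩ := int_decomp (p := p) (pow_sub_one_ne (p := p) hk)
  rw [hs] at h1
  have h2 := principal_div hr h1
  refine ⟨s, ?_⟩
  push_cast at h2
  exact h2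

theorem h0_zero [F.IsComm] {k : ℤ} (hk : k ≠ 0) {x : E0 p n}
    (hx : ∀ a : Elt F, act k a x = x) : x = 0 := by
  have hb := one_add_p_unit (p := p) (n := n)
  have h1 := hx (cen (p + 1) hb)
  rw [cen_act] at h1
  have h2 : ((((p + 1 : ℕ) : ℤ) ^ k.natAbs - 1 : ℤ) : E0 p n) * x = 0 := by
    push_cast
    rcases le_total 0 k with hk | hk
    · rw [cen_zpow_pos _ (p + 1) (cen_t (p + 1) hb) hk] at h1
      push_cast at h1
      rw [sub_mul, one_mul, h1, sub_self]
    · have h6 := cen_zpow_neg _ (p + 1) (cen_t (F := F) (p + 1) hb) hk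
      push_cast at h6
      generalize (((cen (F := F) (p + 1) hb).t ^ k : (E0 p n)ˣ) : E0 p n) = U at h1 h6
      linear_combination (-((p : E0 p n) + 1) ^ k.natAbs) * h1 + x * h6
  rcases mul_eq_zero.1 h2 with h3 | h3
  · exfalso
    obtain ⟨s, r, hr, hs⟩ := int_decomp (p := p) (pow_sub_one_ne (p := p) hk)
    rw [hs] at h3
    push_cast at h3
    exact mul_ne_zero (pow_ne_zero s p_ne_zero) (unit_of_not_dvd hr).ne_zero h3
  · exact h3

section

variable (hF : IsUniversalDeformation p n Γ F) (hH : HeightAdapted p n F) (hΓ : IsHonda p n Γ)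
include hF hH hΓ

theorem h0_weight_zero (hn : 2 ≤ n) (N : ℕ) {x : E0 p n} (hx : ∀ a : Elt F, act 0 a x = x) :
    ∃ c : ℤ, (p : E0 p n) ^ N ∣ x - c := by
  have hp : p.Prime := Fact.out
  induction N generalizing x with
  | zero => exact ⟨0, by simp⟩
  | succ N ih =>
    have key : ∀ (d : ℤ) (y : E0 p n), x = d + p * y → ∃ c : ℤ, (p : E0 p n) ^ (N + 1) ∣ x - c := by
      intro d y hy
      have h1 : ∀ a : Elt F, act 0 a y = y := by
        intro a
        have h2 := hx a
        have h3 : act 0 a (d : E0 p n) = (d : E0 p n) := by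
          rw [act_mul, zpow_zero, Units.val_one, one_mul, map_intCast]
        rw [hy, act_add, act_p, h3] at h2
        exact mul_left_cancel₀ p_ne_zero (add_left_cancel h2)
      obtain ⟨c, z, hz⟩ := ih h1
      refine ⟨d + p * c, z, ?_⟩
      push_cast
      rw [hy, pow_succ]
      linear_combination (p : E0 p n) * hz
    rcases inv_dvd hF hH hΓ hn (k := 0) (x := x) (fun a => by rw [hx a, sub_self]; exact dvd_zero _)
      with ⟨y, hy⟩ | ⟨m, d, hm, y, hy⟩
    · exact key 0 y (by rw [hy]; simp)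
    · have hm0 : m = 0 := by
        have h2 : (p : ℤ) - 1 ≠ 0 := by
          have := hp.two_le
          omega
        exact_mod_cast (mul_eq_zero.1 hm.symm).resolve_right h2
      rw [hm0, pow_zero, mul_one] at hy
      exact key d y (by rw [← hy]; ring)

theorem h1_cyc (hn : 2 ≤ n) {m : ℕ} (hm : 1 ≤ m) : ∃ (e : ℕ) (c₁ : Elt F → E0 p n),
    IsCrossed (m * ((p : ℤ) - 1)) c₁ ∧
    (∀ c : Elt F → E0 p n, IsCrossed (m * ((p : ℤ) - 1)) c →
      ∃ j : ℤ, IsPrincipal (m * ((p : ℤ) - 1)) (fun a => c a - (j : E0 p n) * c₁ a)) ∧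
    (∀ j : ℤ, IsPrincipal (m * ((p : ℤ) - 1)) (fun a => (j : E0 p n) * c₁ a) ↔ (p : ℤ) ^ e ∣ j) ∧
    padicValNat p m + 1 ≤ e ∧
    (∀ b : ℕ, Nat.Coprime b p → (p : ℤ) ^ e ∣ (b : ℤ) ^ (m * (p - 1)) - 1) ∧
    (Odd p → e = padicValNat p m + 1) := by
  classical
  have hp : p.Prime := Fact.out
  have hn1 : 1 ≤ n := by omega
  have hF1 : F.IsComm := hF.comm
  have hp2 := hp.two_le
  set k : ℤ := m * ((p : ℤ) - 1) with hk
  have hkabs : k.natAbs = m * (p - 1) := by
    rw [hk, Int.natAbs_mul, Int.natAbs_natCast]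
    congr 1
    omega
  have hk0 : k ≠ 0 := by
    rw [hk]
    refine mul_ne_zero (by omega) (by omega)
  have hv := v1_pow_ne hF hH hΓ hn m
  have hndvd : ∀ x : E0 p n, (p : E0 p n) ∣ x - v1 F ^ m → ¬ (p : E0 p n) ∣ x := by
    intro x hx hd
    apply hv
    have := dvd_sub hd hx
    rwa [sub_sub_cancel] at this
  let P : ℕ → Prop := fun e => ∃ x : E0 p n, (p : E0 p n) ∣ x - v1 F ^ m ∧
    ∀ a : Elt F, (p : E0 p n) ^ e ∣ act k a x - x
  have hPb : ∀ e, P e → ∀ b : ℕ, Nat.Coprime b p → (p : ℤ) ^ e ∣ (b : ℤ) ^ (m * (p - 1)) - 1 := by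
    rintro e ⟨x, hx1, hx2⟩ b hb
    rw [← hkabs]
    have hbu : IsUnit (b : E0 p n) := by
      have h := unit_of_not_dvd (p := p) (n := n) (r := (b : ℤ)) (by
        rw [Int.natCast_dvd_natCast]
        exact fun hd => hp.one_lt.ne' (Nat.dvd_one.1 (hb.gcd_eq_one ▸ Nat.dvd_gcd hd (dvd_refl p))))
      rwa [Int.cast_natCast] at h
    exact cen_dvd hn1 b hbu e (hndvd x hx1) hx2
  set B := (p + 1) ^ (m * (p - 1)) with hB
  have hcop : Nat.Coprime (p + 1) p := by simp
  have hB1 : 1 < B := by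
    rw [hB]
    apply Nat.one_lt_pow
    · exact (Nat.mul_pos hm (by omega)).ne'
    · omega
  have hPB' : ∀ e, P e → p ^ e ∣ B - 1 := by
    intro e he
    have h1 := hPb e he (p + 1) hcop
    have h2 : ((p + 1 : ℕ) : ℤ) ^ (m * (p - 1)) - 1 = ((B - 1 : ℕ) : ℤ) := by
      rw [Nat.cast_sub hB1.le, hB]
      push_cast
      ring
    rw [h2] at h1
    exact_mod_cast h1
  have hPB : ∀ e, P e → e ≤ B := by
    intro e he
    have h1 := Nat.le_of_dvd (by omega) (hPB' e he)
    have h2 := Nat.lt_pow_self (n := e) hp.one_lt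
    omega
  have hP0 : P 0 := ⟨v1 F ^ m, by simp, fun a => by simp⟩
  set e := Nat.findGreatest P B with he
  have hPe : P e := Nat.findGreatest_spec (Nat.zero_le B) hP0
  have hmax : ∀ e', P e' → e' ≤ e := fun e' h' => Nat.le_findGreatest (hPB e' h') h'
  obtain ⟨x₁, hx₁, hx₁'⟩ := hPe
  obtain ⟨c₁, hc₁, hc₁'⟩ := exists_crossed e hx₁'
  have hlow : padicValNat p m + 1 ≤ e := by
    apply hmax
    obtain ⟨r, hr⟩ := pow_padicValNat_dvd (p := p) (n := m)
    refine ⟨v1 F ^ m, by simp, fun a => ?_⟩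
    have h := v1_pow_inv hF hH hn (padicValNat p m) r a
    rw [← hr] at h
    exact h
  refine ⟨e, c₁, hc₁, ?_, ?_, hlow, hPb e ⟨x₁, hx₁, hx₁'⟩, ?_⟩
  · intro c hc
    obtain ⟨N, hN⟩ := exists_kill hk0 hc
    exact h1_cyc_aux hF hH hΓ hn hx₁ hc₁' (fun e' x h1 h2 => hmax e' ⟨x, h1, h2⟩) N hN
  · intro j
    constructor
    · intro hj
      rcases eq_or_ne j 0 with rfl | hj0
      · exact dvd_zero _
      obtain ⟨s, r, hr, rfl⟩ := int_decomp (p := p) hj0
      by_cases hse : e ≤ s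
      · exact (pow_dvd_pow _ hse).mul_right _
      · exfalso
        obtain ⟨y, hy⟩ := principal_div hr hj
        replace hy : ∀ a, (((p : ℤ) ^ s : ℤ) : E0 p n) * c₁ a = act k a y - y := hy
        obtain ⟨d, hd⟩ := Nat.exists_eq_add_of_lt (not_le.1 hse)
        have h1 : ∀ a : Elt F, act k a (x₁ - (p : E0 p n) ^ (d + 1) * y) =
            x₁ - (p : E0 p n) ^ (d + 1) * y := by
          intro a
          have h2 : act k a ((p : E0 p n) ^ (d + 1) * y) = (p : E0 p n) ^ (d + 1) * act k a y := by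
            apply act_fix
            rw [map_pow, map_natCast]
          have h3 := hc₁' a
          have h4 := hy a
          rw [hd, show s + d + 1 = (d + 1) + s by ring, pow_add] at h3
          push_cast at h4
          rw [act_sub, h2]
          linear_combination (p : E0 p n) ^ (d + 1) * h4 - h3
        have h5 := h0_zero hk0 h1
        apply hndvd x₁ hx₁
        rw [sub_eq_zero.1 h5, pow_succ', mul_assoc]
        exact dvd_mul_right _ _
    · rintro ⟨r, rfl⟩
      refine ⟨(r : E0 p n) * x₁, fun a => ?_⟩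
      rw [act_int, ← mul_sub, ← hc₁' a]
      push_cast
      ring
  · intro hodd
    apply le_antisymm _ hlow
    have h1 := hPB' e ⟨x₁, hx₁, hx₁'⟩
    have h2 := (padicValNat_dvd_iff_le (p := p) (by omega : B - 1 ≠ 0)).1 h1
    have h3 : padicValNat p (B - 1) = padicValNat p (p + 1 - 1) + padicValNat p (m * (p - 1)) := by
      have := padicValNat.pow_sub_pow (p := p) hodd (x := p + 1) (y := 1) (by omega) (by simp)
        (by
          rw [Nat.dvd_add_right (dvd_refl p)]
          exact fun hd => hp.one_lt.ne' (Nat.dvd_one.1 hd)) (n := m * (p - 1))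
        ((Nat.mul_pos hm (by omega)).ne')
      rwa [one_pow, ← hB] at this
    rw [h3, Nat.add_sub_cancel, padicValNat_self, padicValNat.mul (by omega) (by omega)] at h2
    have h4 : padicValNat p (p - 1) = 0 := by
      apply padicValNat.eq_zero_of_not_dvd
      intro hd
      have := Nat.le_of_dvd (by omega) hd
      omega
    omega

end

end Vale.Agent.P261
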