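import Vale.Agent.P261.H399.Key

/-!
# P261: invariants of finitely generated equivariant modules
-/

namespace Vale.Agent.P261

open Vale.Agent.P217

section Abstract

variable {R G M : Type*} [CommRing R] [AddCommGroup M] [Module R M] [IsNoetherian R M]

open Classical in
/-- invariants of a torsion-free subquotient are generated by finitely many of them. -/
theorem step_gen (φ : G → R → R) (T : G → M ≃+ M)
    (hT : ∀ g r m, T g (r • m) = φ g r • T g m) (I : Ideal R) (A B : Submodule R M)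
    (hI1 : (1 : R) ∉ I)
    (hTA : ∀ g m, m ∈ A ↔ T g m ∈ A)
    (hAB : ∀ m ∈ B, ∀ r : R, r • m ∈ A ↔ r ∈ I ∨ m ∈ A)
    (key : ∀ a b : R, a ∉ I → (∀ g, φ g a * b - a * φ g b ∈ I) → ∃ c : ℤ, b - c * a ∈ I) :
    ∃ S : Finset M, (∀ s ∈ S, s ∈ B ∧ ∀ g, T g s - s ∈ A) ∧
      ∀ w ∈ B, (∀ g, T g w - w ∈ A) → ∃ c : M → ℤ, w - ∑ s ∈ S, c s • s ∈ A := by
  let W : M → Prop := fun w => w ∈ B ∧ ∀ g, T g w - w ∈ A
  let Ind : Finset M → Prop := fun S => ∀ b : M → R, (∑ s ∈ S, b s • s) ∈ A → ∀ s ∈ S, b s ∈ I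
  let P : Submodule R M → Prop := fun L => ∃ S : Finset M, (∀ s ∈ S, W s) ∧ Ind S ∧
    L = Submodule.span R (S : Set M) ⊔ A
  have hP0 : P (Submodule.span R ((∅ : Finset M) : Set M) ⊔ A) :=
    ⟨∅, by simp, fun b _ s hs => absurd hs (Finset.notMem_empty s), rfl⟩
  obtain ⟨L, ⟨S, hSW, hSI, rfl⟩, hmax⟩ := (wellFounded_gt (α := Submodule R M)).has_min
    {L | P L} ⟨_, hP0⟩
  refine ⟨S, hSW, fun w hwB hwW => ?_⟩
  -- a relation
  obtain ⟨b, a, haI, hrel⟩ : ∃ (b : M → R) (a : R), a ∉ I ∧ a • w - ∑ s ∈ S, b s • s ∈ A := by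
    by_contra hcon
    push Not at hcon
    have hwS : w ∉ S := by
      intro hwS
      refine hcon (fun s => if s = w then 1 else 0) 1 hI1 ?_
      rw [one_smul, Finset.sum_eq_single w]
      · simp
      · intro s _ hs
        rw [if_neg hs, zero_smul]
      · intro h
        exact absurd hwS h
    have hInd : Ind (insert w S) := by
      intro b hb
      rw [Finset.sum_insert hwS] at hb
      have h1 : b w ∈ I := by
        by_contra h1
        refine hcon (fun s => - b s) (b w) h1 ?_
        simp only [neg_smul, Finset.sum_neg_distrib, sub_neg_eq_add]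
        exact hb
      have h2 : b w • w ∈ A := (hAB w hwB (b w)).2 (Or.inl h1)
      have h3 : ∑ s ∈ S, b s • s ∈ A := (Submodule.add_mem_iff_right A h2).1 hb
      intro s hs
      rcases Finset.mem_insert.1 hs with rfl | hs
      · exact h1
      · exact hSI b h3 s hs
    refine hmax (Submodule.span R ((insert w S : Finset M) : Set M) ⊔ A)
      ⟨insert w S, ?_, hInd, rfl⟩ ?_
    · intro s hs
      rcases Finset.mem_insert.1 hs with rfl | hs
      · exact ⟨hwB, hwW⟩
      · exact hSW s hs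
    · refine lt_of_le_of_ne (sup_le_sup_right (Submodule.span_mono (by simp)) A) ?_
      intro heq
      have hw : w ∈ Submodule.span R (S : Set M) ⊔ A := by
        rw [heq]
        exact Submodule.mem_sup_left (Submodule.subset_span (by simp))
      obtain ⟨y, hy, z, hz, hyz⟩ := Submodule.mem_sup.1 hw
      obtain ⟨b, hb⟩ := (Submodule.mem_span_finset' ).1 hy
      refine hcon (fun s => if h : s ∈ S then b ⟨s, h⟩ else 0) 1 hI1 ?_
      have h1 : ∑ s ∈ S, (if h : s ∈ S then b ⟨s, h⟩ else 0) • s = y := by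
        rw [← hb, ← Finset.sum_coe_sort]
        refine Finset.sum_congr rfl fun s _ => ?_
        rw [dif_pos s.2]
      rw [h1, one_smul, ← hyz, add_sub_cancel_left]
      exact hz
  -- the coefficients are constant
  have hcoef : ∀ g, ∀ s ∈ S, a * φ g (b s) - φ g a * b s ∈ I := by
    intro g
    have h1 : φ g a • w - ∑ s ∈ S, φ g (b s) • s ∈ A := by
      have h2 := (hTA g _).1 hrel
      rw [map_sub, map_sum, hT] at h2
      have h3 : φ g a • w - ∑ s ∈ S, φ g (b s) • s =
          (φ g a • T g w - ∑ s ∈ S, T g (b s • s)) - φ g a • (T g w - w) +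
            ∑ s ∈ S, φ g (b s) • (T g s - s) := by
        simp only [hT, smul_sub, Finset.sum_sub_distrib]
        abel
      rw [h3]
      refine A.add_mem (A.sub_mem h2 (A.smul_mem _ (hwW g))) (Submodule.sum_mem _ fun s hs => ?_)
      exact A.smul_mem _ ((hSW s hs).2 g)
    refine hSI (fun s => a * φ g (b s) - φ g a * b s) ?_
    have h4 : ∑ s ∈ S, (a * φ g (b s) - φ g a * b s) • s =
        φ g a • (a • w - ∑ s ∈ S, b s • s) - a • (φ g a • w - ∑ s ∈ S, φ g (b s) • s) := by
      simp only [sub_smul, smul_sub, Finset.smul_sum, Finset.sum_sub_distrib, smul_smul]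
      rw [mul_comm (φ g a) a]
      abel
    rw [h4]
    exact A.sub_mem (A.smul_mem _ hrel) (A.smul_mem _ h1)
  have hc : ∀ s, ∃ c : ℤ, s ∈ S → b s - c * a ∈ I := by
    intro s
    by_cases hs : s ∈ S
    · obtain ⟨c, hc⟩ := key a (b s) haI (fun g => by
        have := I.neg_mem (hcoef g s hs)
        rwa [neg_sub] at this)
      exact ⟨c, fun _ => hc⟩
    · exact ⟨0, fun h => absurd h hs⟩
  choose c hc using hc
  refine ⟨c, ?_⟩
  have h5 : a • (w - ∑ s ∈ S, c s • s) ∈ A := by
    have h6 : a • (w - ∑ s ∈ S, c s • s) = (a • w - ∑ s ∈ S, b s • s) +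
        ∑ s ∈ S, (b s - c s * a) • s := by
      simp only [sub_smul, smul_sub, Finset.smul_sum, Finset.sum_sub_distrib]
      have h7 : ∀ s, ((c s : R) * a) • s = a • (c s • s) := by
        intro s
        rw [mul_comm, mul_smul, Int.cast_smul_eq_zsmul]
      simp only [h7]
      abel
    rw [h6]
    refine A.add_mem hrel (Submodule.sum_mem _ fun s hs => ?_)
    exact (hAB s (hSW s hs).1 _).2 (Or.inl (hc s hs))
  have hwB' : w - ∑ s ∈ S, c s • s ∈ B :=
    B.sub_mem hwB (Submodule.sum_mem _ fun s hs => B.smul_of_tower_mem (c s) (hSW s hs).1)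
  exact ((hAB _ hwB' a).1 h5).resolve_left haI

end Abstract

end Vale.Agent.P261
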