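import Vale.Agent.P217.Bdl.B3

/-!
# P261: auxiliary facts on power series
-/

namespace Vale.Agent.P261

open MvPowerSeries

theorem prime_X {σ κ : Type*} [Field κ] (s : σ) : Prime (X s : MvPowerSeries σ κ) := by
  classical
  let e : {t // t ≠ s} ↪ σ := Function.Embedding.subtype _
  have : IsDomain (MvPowerSeries {t // t ≠ s} κ) := NoZeroDivisors.to_isDomain _
  have hker : ∀ f : MvPowerSeries σ κ, X s ∣ f ↔ killCompl e f = 0 := by
    intro f
    constructor
    · rintro ⟨g, rfl⟩
      rw [map_mul, killCompl_X_eq_zero, zero_mul]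
      rintro ⟨t, ht⟩
      exact t.2 ht
    · intro h
      rw [X_dvd_iff]
      intro m hm
      have hmr : m ∈ Set.range (Finsupp.embDomain e) := by
        rw [Finsupp.mem_range_embDomain_iff]
        intro t ht
        refine ⟨⟨t, ?_⟩, rfl⟩
        rintro rfl
        exact (Finsupp.mem_support_iff.1 ht) hm
      obtain ⟨d, rfl⟩ := hmr
      rw [← coeff_killCompl, h]
      rfl
  refine ⟨?_, ?_, ?_⟩
  · intro h0
    have := congrArg (coeff (Finsupp.single s 1)) h0
    rw [coeff_X, if_pos rfl] at this
    exact one_ne_zero this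
  · intro hu
    have := hu.map (constantCoeff (σ := σ) (R := κ))
    rw [constantCoeff_X] at this
    exact not_isUnit_zero this
  · intro a b hab
    rw [hker, map_mul, mul_eq_zero] at hab
    rwa [hker, hker]

end Vale.Agent.P261
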