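import Vale.Agent.P261.H399.End
import Vale.Agent.P261.H399.Ident
import Vale.Agent.P261.H399.Defs

/-!
# P261: there is no invariant unit of nonzero weight modulo `p`
-/

namespace Vale.Agent.P261

open MvPowerSeries Vale.Agent.P217

variable {p n : ℕ} [Fact p.Prime] {Γ : FormalGroup (ZMod p)} {F : FormalGroup (E0 p n)}

theorem Elt.coe_t (a : Elt F) : (a.t : E0 p n) = PowerSeries.coeff 1 a.g := a.iso.2.unit_spec

section Height

variable (hF : IsUniversalDeformation p n Γ F) (hH : HeightAdapted p n F)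
include hH

theorem piH_phi_of_mem {h : ℕ} (hh : 1 ≤ h) (hhn : h ≤ n) (a : Elt F) {x : E0 p n}
    (hx : piH p n h hh hhn x = 0) : piH p n h hh hhn (a.φ x) = 0 := by
  have h1 := isInvariant_heightIdeal_of_adapted hH h hhn a.φ a.g a.iso
  rw [← RingHom.mem_ker, ker_piH] at hx ⊢
  rw [← h1]
  exact Ideal.mem_map_of_mem (a.φ : E0 p n →+* E0 p n) hx

include hF

/-- the relation `t^(p^h - 1) φ(w_h) = w_h` modulo `I_h`. -/
theorem w_rel {h : ℕ} (hh : 1 ≤ h) (hhn : h < n)
    (a : Elt F) :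
    piH p n h hh hhn.le (a.φ (PowerSeries.coeff (p ^ h) (multSeries F p))) *
      piH p n h hh hhn.le a.t ^ (p ^ h - 1) =
      piH p n h hh hhn.le (PowerSeries.coeff (p ^ h) (multSeries F p)) := by
  have hp : p.Prime := Fact.out
  have hF1 : F.IsComm := hF.comm
  have hq0 : p ^ h ≠ 0 := pow_ne_zero _ hp.ne_zero
  have : IsDomain (MvPowerSeries (Fin (n - h)) (GaloisField p n)) := NoZeroDivisors.to_isDomain _
  have hker : ∀ j < p ^ h, piH p n h hh hhn.le (PowerSeries.coeff j (multSeries F p)) = 0 := by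
    intro j hj
    rw [← RingHom.mem_ker, ker_piH, hH h hh hhn.le]
    exact Ideal.subset_span (Or.inr ⟨j, hj, rfl⟩)
  have e1 := a.iso.1.fbSubst_multSeries p
  have e2 := congrArg (PowerSeries.map (piH p n h hh hhn.le)) e1
  rw [C0.ps_map_subst _ (constantCoeff_multSeries' F p), C0.ps_map_subst _ a.iso.1.1,
    ← fbMap_multSeries] at e2
  have d1 : PowerSeries.X ^ (p ^ h) ∣ PowerSeries.map (piH p n h hh hhn.le) (multSeries F p) := by
    rw [PowerSeries.X_pow_dvd_iff]
    intro m hm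
    rw [PowerSeries.coeff_map, hker m hm]
  have d2 : PowerSeries.X ^ (p ^ h) ∣ PowerSeries.map (piH p n h hh hhn.le)
      (PowerSeries.map (a.φ : E0 p n →+* E0 p n) (multSeries F p)) := by
    rw [PowerSeries.X_pow_dvd_iff]
    intro m hm
    rw [PowerSeries.coeff_map, PowerSeries.coeff_map]
    exact piH_phi_of_mem hH hh hhn.le a (hker m hm)
  have d3 : PowerSeries.X ^ 1 ∣ PowerSeries.map (piH p n h hh hhn.le) a.g := by
    rw [pow_one]
    exact PowerSeries.X_dvd_iff.2 (C0.cc_map _ a.iso.1.1)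
  have f1 := (comp_lead hq0 d3 d1).2
  have f2 := (comp_lead one_ne_zero d2 d3).2
  rw [mul_one, pow_one] at f1
  rw [one_mul, ← e2, f1] at f2
  simp only [PowerSeries.coeff_map] at f2
  have ht : piH p n h hh hhn.le (PowerSeries.coeff 1 a.g) = piH p n h hh hhn.le a.t := by
    rw [a.coe_t]
  rw [ht] at f2
  have htu : piH p n h hh hhn.le a.t ≠ 0 := (a.t.isUnit.map (piH p n h hh hhn.le)).ne_zero
  apply mul_left_cancel₀ htu
  rw [f2]
  have hqq : p ^ h = (p ^ h - 1) + 1 := by omega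
  nth_rewrite 4 [hqq]
  rw [pow_succ]
  change _ = piH p n h hh hhn.le (a.φ _) * _
  ring

end Height

/-- a weight relation in terms of natural exponents. -/
theorem exists_Y {R : Type*} [CommRing R] (ρ : E0 p n →+* R) {k : ℤ} (hk : k ≠ 0) (y : (E0 p n)ˣ)
    (hy : ∀ a : Elt F, ρ (act k a y) = ρ y) : ∃ (Y : (E0 p n)ˣ) (K : ℕ), 1 ≤ K ∧
      ∀ a : Elt F, ρ (a.φ (Y : E0 p n)) = ρ a.t ^ K * ρ Y := by
  rcases lt_or_gt_of_ne hk with hneg | hpos
  · obtain ⟨K, hK⟩ := Int.eq_ofNat_of_zero_le (show 0 ≤ -k by omega)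
    refine ⟨y, K, by omega, fun a => ?_⟩
    have h1 := hy a
    have hkk : k = -(K : ℤ) := by omega
    rw [act, hkk, map_mul] at h1
    rw [← h1, ← mul_assoc, ← map_pow, ← map_mul]
    have h2 : (a.t : E0 p n) ^ K * ((a.t ^ (-(K : ℤ)) : (E0 p n)ˣ) : E0 p n) = 1 := by
      rw [← Units.val_pow_eq_pow_val, ← Units.val_mul, zpow_neg, zpow_natCast, mul_inv_cancel,
        Units.val_one]
    rw [h2, map_one, one_mul]
  · obtain ⟨K, hK⟩ := Int.eq_ofNat_of_zero_le (show 0 ≤ k by omega)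
    refine ⟨y⁻¹, K, by omega, fun a => ?_⟩
    have h1 := hy a
    have hkk : k = (K : ℤ) := by omega
    rw [act, hkk, map_mul, zpow_natCast, Units.val_pow_eq_pow_val, map_pow] at h1
    have h2 : ρ (a.φ (y : E0 p n)) * ρ (a.φ ((y⁻¹ : (E0 p n)ˣ) : E0 p n)) = 1 := by
      rw [← map_mul, ← map_mul, Units.mul_inv, map_one, map_one]
    have h3 : ρ (y : E0 p n) * ρ ((y⁻¹ : (E0 p n)ˣ) : E0 p n) = 1 := by
      rw [← map_mul, Units.mul_inv, map_one]
    calc ρ (a.φ ((y⁻¹ : (E0 p n)ˣ) : E0 p n))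
        = (ρ y * ρ ((y⁻¹ : (E0 p n)ˣ) : E0 p n)) * ρ (a.φ ((y⁻¹ : (E0 p n)ˣ) : E0 p n)) := by
          rw [h3, one_mul]
      _ = ρ ((y⁻¹ : (E0 p n)ˣ) : E0 p n) * (ρ a.t ^ K * (ρ (a.φ (y : E0 p n)) *
            ρ (a.φ ((y⁻¹ : (E0 p n)ˣ) : E0 p n)))) := by
          rw [← h1]; ring
      _ = ρ a.t ^ K * ρ ((y⁻¹ : (E0 p n)ˣ) : E0 p n) := by rw [h2]; ring

section NoUnit

variable (hF : IsUniversalDeformation p n Γ F) (hH : HeightAdapted p n F) (hΓ : IsHonda p n Γ)
include hF hH hΓ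

theorem no_unit {h : ℕ} (hh : 1 ≤ h) (hn : n = h + 1) {k : ℤ} (hk : k ≠ 0) (y : (E0 p n)ˣ)
    (hy : ∀ a : Elt F, piH p n h hh (by omega) (act k a y) = piH p n h hh (by omega) y) :
    False := by
  classical
  have hp : p.Prime := Fact.out
  have hhn : h < n := by omega
  have hn1 : 1 ≤ n := by omega
  have hF1 : F.IsComm := hF.comm
  have : IsDomain (MvPowerSeries (Fin (n - h)) (GaloisField p n)) := NoZeroDivisors.to_isDomain _
  have hΓ₀ := hΓ.hondaLike hn1 (GaloisField p n) (algebraMap (ZMod p) (GaloisField p n))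
  obtain ⟨A, hA⟩ := exists_famFG' hn1 hΓ₀ hF hH h hh hhn
  set ρ := piH p n h hh hhn.le with hρ
  obtain ⟨Y, K, hK1, hY⟩ := exists_Y ρ hk y hy
  set W := PowerSeries.coeff (p ^ h) (multSeries F p) with hW
  have hWrel := fun a : Elt F => w_rel hF hH hh hhn a
  set Z0 : E0 p n := W ^ K * (Y : E0 p n) ^ (p ^ h - 1) with hZ0
  have hZ : ∀ a : Elt F, ρ (a.φ Z0) = ρ Z0 := by
    intro a
    rw [hZ0, map_mul, map_pow, map_pow, map_mul, map_pow, map_pow, hY a, map_mul, map_pow, map_pow,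
      ← hWrel a]
    ring
  -- the special elements
  have hl : ∀ i : ℕ, IsIso (Γ.map (algebraMap (ZMod p) (GaloisField p n)))
      (Γ.map (algebraMap (ZMod p) (GaloisField p n)))
      (gser p (Γ.map (algebraMap (ZMod p) (GaloisField p n))) 1 (n * i + 1)) :=
    fun i => isIso_gser hΓ₀ 1 _ (by omega)
  have hex := fun i => (AC.exists_unique_pair hF (RingEquiv.refl _) _ (hl i)).exists
  choose P hP1 hP2 hP3 using hex
  let a : ℕ → Elt F := fun i => ⟨(P i).1, (P i).2, hP2 i⟩
  have hred : ∀ i, (red p n).comp ((P i).1 : E0 p n →+* E0 p n) = red p n := by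
    intro i
    rw [hP1 i]
    ext x
    rfl
  have hI : ∀ i, (heightIdeal p n h).map ((P i).1 : E0 p n →+* E0 p n) ≤ heightIdeal p n h :=
    fun i => (isInvariant_heightIdeal_of_adapted hH h hhn.le _ _ (hP2 i)).le
  have hdes := fun i => exists_descent hn1 h hh hhn.le ((P i).1 : E0 p n →+* E0 p n) (hred i) (hI i)
  choose f hf1 hf2 using hdes
  have hf : ∀ i x, f i (ρ x) = ρ ((a i).φ x) := fun i x => RingHom.congr_fun (hf1 i) x
  -- the leading coefficient
  obtain ⟨e, heu, he⟩ := A.V_one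
  set i0 : Fin (n - h) := ⟨0, Nat.sub_pos_of_lt A.h_lt_n⟩ with hi0
  have hph0 : p ^ h ≠ 0 := pow_ne_zero _ hp.ne_zero
  have hρW : ρ W = e * X i0 := by
    have h1 : ρ W = PowerSeries.coeff (p ^ h) (multSeries A.G p) := by
      rw [hA, ← fbMap_multSeries, PowerSeries.coeff_map]
    rw [h1, A.series, PowerSeries.coeff_subst_X_pow hph0, if_pos (dvd_refl _),
      Nat.div_self (Nat.pos_of_ne_zero hph0), ← he]
    rfl
  have hfX : ∀ i, ∃ u, IsUnit u ∧ f i (X i0) = X i0 * u := by
    intro i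
    have h1 := hWrel (a i)
    rw [← hW, ← hf i, hρW, map_mul] at h1
    have hU : IsUnit (f i e * ρ (a i).t ^ (p ^ h - 1)) :=
      (heu.map (f i)).mul (((a i).t.isUnit.map ρ).pow _)
    obtain ⟨U, hU⟩ := hU
    refine ⟨e * ((U⁻¹ : (MvPowerSeries (Fin (n - h)) (GaloisField p n))ˣ) :
      MvPowerSeries (Fin (n - h)) (GaloisField p n)), heu.mul (U⁻¹).isUnit, ?_⟩
    have h2 : f i (X i0) * (U : MvPowerSeries (Fin (n - h)) (GaloisField p n)) = e * X i0 := by
      rw [hU, ← h1]; ring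
    rw [← mul_assoc, mul_comm (X i0), ← h2, mul_assoc, Units.mul_inv, mul_one]
  have hnh : n - h = 1 := by omega
  have hsub : ∀ i : Fin (n - h), i = i0 := by
    intro i
    apply Fin.ext
    have := i.2
    omega
  let E : MvPowerSeries (Fin (n - h)) (GaloisField p n) ≃ₐ[GaloisField p n]
      PowerSeries (GaloisField p n) :=
    MvPowerSeries.renameEquiv (GaloisField p n) ((finCongr hnh).trans finOneEquiv)
  have hEX : E (X i0) = PowerSeries.X := by
    change MvPowerSeries.rename _ (X i0) = _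
    rw [MvPowerSeries.rename_X]
    rfl
  have hEsX : E.symm PowerSeries.X = X i0 := by rw [← hEX, AlgEquiv.symm_apply_apply]
  let Φ : ℕ → PowerSeries (GaloisField p n) →ₐ[GaloisField p n] PowerSeries (GaloisField p n) :=
    fun i => (E.toAlgHom.comp (f i)).comp E.symm.toAlgHom
  have hΦ : ∀ i x, Φ i x = E (f i (E.symm x)) := fun i x => rfl
  refine ident_thm (E (ρ Z0)) hK1 ?_ (fun i => (Φ i : PowerSeries (GaloisField p n) →+* _))
    ?_ ?_ ?_ ?_
  · have h1 : ρ Z0 = X i0 ^ K * (e ^ K * ρ Y ^ (p ^ h - 1)) := by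
      rw [hZ0, map_mul, map_pow, map_pow, hρW]; ring
    rw [h1, map_mul, map_pow, hEX, PowerSeries.coeff_X_pow_mul', if_pos le_rfl, Nat.sub_self,
      PowerSeries.coeff_zero_eq_constantCoeff_apply]
    have hU : IsUnit (E (e ^ K * ρ Y ^ (p ^ h - 1))) :=
      ((heu.pow K).mul ((Y.isUnit.map ρ).pow _)).map E
    exact (PowerSeries.isUnit_iff_constantCoeff.1 hU).ne_zero
  · intro i c
    exact (Φ i).commutes c
  · intro i
    obtain ⟨u, hu, h1⟩ := hfX i
    refine ⟨E u, hu.map E, ?_⟩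
    change Φ i PowerSeries.X = _
    rw [hΦ, hEsX, h1, map_mul, hEX]
  · intro i j
    have h2 : ∀ i, Φ i (E (ρ Z0)) = E (ρ Z0) := by
      intro i
      rw [hΦ, AlgEquiv.symm_apply_apply, hf, hZ]
    change Φ i (E (ρ Z0)) = Φ j (E (ρ Z0))
    rw [h2, h2]
  · have key : ∀ i j, i < j → Φ i PowerSeries.X ≠ Φ j PowerSeries.X := by
      intro i j hij heq
      rw [hΦ, hΦ, hEsX] at heq
      have h1 := E.injective heq
      have h2 : (f i : MvPowerSeries (Fin (n - h)) (GaloisField p n) →+*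
          MvPowerSeries (Fin (n - h)) (GaloisField p n)) = (f j : _ →+* _) := by
        refine bc_hom_ext ?_ ?_ ?_
        · intro c
          exact ((f i).commutes c).trans ((f j).commutes c).symm
        · intro m
          rw [hsub m]
          exact h1
        · intro m
          exact hf2 i m
      have h3 : ρ.comp ((P i).1 : E0 p n →+* E0 p n) = ρ.comp ((P j).1 : E0 p n →+* E0 p n) := by
        rw [← hf1 i, ← hf1 j, h2]
      have hgi := (hP2 i).mapC ρ
      have hgj := (hP2 j).mapC ρ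
      rw [C0.FG_map_map, h3, ← hA] at hgi
      rw [C0.FG_map_map, ← hA] at hgj
      have hcc : ∀ i, (PowerSeries.map ρ (P i).2).map constantCoeff =
          gser p (Γ.map (algebraMap (ZMod p) (GaloisField p n))) 1 (n * i + 1) := by
        intro i
        rw [← hP3 i]
        ext m
        rw [PowerSeries.coeff_map, PowerSeries.coeff_map, PowerSeries.coeff_map, constantCoeff_piH]
      have hcomm : (F.map (ρ.comp ((P j).1 : E0 p n →+* E0 p n))).IsComm := inferInstance
      refine no_iso_pair hΓ₀ A ?_ hgi hgj (l := n * i + 1) (l' := n * j + 1) (by omega) ?_ ?_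
        (hcc i) (hcc j)
      · intro d hd
        have h4 := eq_C_of_pow_eq (p := p) hh hd
        have h5 : (constantCoeff d) ^ p ^ h = constantCoeff d := by rw [← map_pow, hd]
        have h6 : (constantCoeff d) ^ p = constantCoeff d := by
          have h7 := galois_pow hn1 (constantCoeff d)
          have h8 : p ^ n = p ^ h * p := by rw [hn, pow_succ]
          rw [h8, pow_mul, h5] at h7
          exact h7
        obtain ⟨z, hz⟩ := exists_intCast_of_pow_eq h6
        refine ⟨z, ?_⟩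
        rw [h4, ← hz, map_intCast]
      · have := Nat.mul_lt_mul_of_pos_left hij (show 0 < n by omega)
        omega
      · intro hd
        have := (Nat.dvd_add_right (dvd_mul_right n i)).1 hd
        have := Nat.le_of_dvd one_pos this
        omega
    intro i j hij
    rcases lt_or_gt_of_ne hij with h1 | h1
    · exact key i j h1
    · exact (key j i h1).symm

end NoUnit

end Vale.Agent.P261
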