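import Mathlib.RingTheory.Filtration
import Mathlib.RingTheory.WittVector.Compare
import Mathlib.NumberTheory.Padics.ProperSpace
import Vale.Agent.P261.H399.Gen

/-!
# P261: the invariants are a finitely generated `ℤ_p`-module
-/

namespace Vale.Agent.P261

open Vale.Agent.P217

universe u

variable {p n : ℕ} [Fact p.Prime]

theorem nonempty_iota : Nonempty (ℤ_[p] →+* E0 p n) :=
  ⟨((MvPowerSeries.C : WittVector p (GaloisField p n) →+* E0 p n).comp
    (WittVector.map (algebraMap (ZMod p) (GaloisField p n)))).comp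
      ((WittVector.equiv p).symm : ℤ_[p] →+* WittVector p (ZMod p))⟩

theorem exists_padic {M : Type u} [AddCommGroup M] [Module (E0 p n) M] [Module.Finite (E0 p n) M]
    (ι : ℤ_[p] →+* E0 p n) (S : Finset M) (x : M)
    (h : ∀ J : ℕ, ∃ (c : M → ℤ) (y : M), x = ∑ s ∈ S, c s • s + (p : E0 p n) ^ J • y) :
    ∃ z : M → ℤ_[p], x = ∑ s ∈ S, ι (z s) • s := by
  classical
  let K : ℕ → Set (S → ℤ_[p]) := fun J =>
    {z | ∃ y : M, x - ∑ s : S, ι (z s) • (s : M) = (p : E0 p n) ^ J • y}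
  have hcong : ∀ (J : ℕ) (z z' : S → ℤ_[p]), (∀ s, (p : ℤ_[p]) ^ J ∣ z s - z' s) → z ∈ K J → z' ∈ K J := by
    intro J z z' hzz ⟨y, hy⟩
    choose w hw using hzz
    refine ⟨y + ∑ s : S, ι (w s) • (s : M), ?_⟩
    have e : x - ∑ s : S, ι (z' s) • (s : M) = (x - ∑ s : S, ι (z s) • (s : M)) +
        ∑ s : S, ι (z s - z' s) • (s : M) := by
      simp only [map_sub, sub_smul, Finset.sum_sub_distrib]
      abel
    rw [e, hy, smul_add, Finset.smul_sum]
    congr 1
    refine Finset.sum_congr rfl fun s _ => ?_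
    rw [hw s, map_mul, map_pow, map_natCast, mul_smul]
  have hball : ∀ (J : ℕ) (a b : ℤ_[p]), ‖a - b‖ < (p : ℝ) ^ (-(J : ℤ) + 1) → (p : ℤ_[p]) ^ J ∣ a - b := by
    intro J a b hab
    rw [← Ideal.mem_span_singleton, ← PadicInt.norm_le_pow_iff_mem_span_pow,
      PadicInt.norm_le_pow_iff_norm_lt_pow_add_one]
    exact hab
  have hpos : ∀ J : ℕ, 0 < (p : ℝ) ^ (-(J : ℤ) + 1) := fun J =>
    zpow_pos (by exact_mod_cast (Fact.out : p.Prime).pos) _
  have hclosed : ∀ J, IsClosed (K J) := by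
    intro J
    rw [← isOpen_compl_iff, Metric.isOpen_iff]
    intro z hz
    refine ⟨(p : ℝ) ^ (-(J : ℤ) + 1), hpos J, fun z' hz' hmem => hz ?_⟩
    refine hcong J z' z (fun s => hball J _ _ ?_) hmem
    rw [← dist_eq_norm]
    exact (dist_le_pi_dist z' z s).trans_lt (Metric.mem_ball.1 hz')
  have hne : (⋂ J, K J).Nonempty := by
    refine IsCompact.nonempty_iInter_of_sequence_nonempty_isCompact_isClosed K ?_ ?_ ?_ hclosed
    · rintro J z ⟨y, hy⟩
      exact ⟨(p : E0 p n) • y, by rw [hy, pow_succ, mul_smul]⟩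
    · intro J
      obtain ⟨c, y, hcy⟩ := h J
      refine ⟨fun s => (c s : ℤ_[p]), y, ?_⟩
      have e : ∑ s : S, ι ((c s : ℤ_[p])) • (s : M) = ∑ s ∈ S, c s • s := by
        rw [← Finset.sum_coe_sort S]
        refine Finset.sum_congr rfl fun s _ => ?_
        rw [map_intCast, Int.cast_smul_eq_zsmul]
      rw [e]
      nth_rewrite 1 [hcy]
      abel
    · exact (hclosed 0).isCompact
  obtain ⟨z, hz⟩ := hne
  rw [Set.mem_iInter] at hz
  refine ⟨fun m => if hm : m ∈ S then z ⟨m, hm⟩ else 0, ?_⟩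
  have e : ∑ s ∈ S, ι (if hm : s ∈ S then z ⟨s, hm⟩ else 0) • s = ∑ s : S, ι (z s) • (s : M) := by
    rw [← Finset.sum_coe_sort S]
    refine Finset.sum_congr rfl fun s _ => ?_
    rw [dif_pos s.2]
  rw [e, ← sub_eq_zero]
  have hkrull := Ideal.iInf_pow_smul_eq_bot_of_isLocalRing (R := E0 p n) (M := M)
    (Ideal.span {(p : E0 p n)}) (by
      intro htop
      rw [Ideal.span_singleton_eq_top] at htop
      have h1 := htop.map (red p n)
      rw [map_natCast, CharP.cast_eq_zero (GaloisField p n) p] at h1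
      exact not_isUnit_zero h1)
  rw [← Submodule.mem_bot (E0 p n), ← hkrull, Submodule.mem_iInf]
  intro J
  obtain ⟨y, hy⟩ := hz J
  rw [hy]
  exact Submodule.smul_mem_smul (Ideal.pow_mem_pow (Ideal.mem_span_singleton_self _) J)
    Submodule.mem_top

end Vale.Agent.P261
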